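import Mathlib

namespace Vale.Agent.H1.P002

/-- The trace function of a group element `γ` on the set of representations
`Γ → SL_r(ℂ)`: it sends `ρ` to `tr ρ(γ)`. -/
noncomputable def traceFun (Γ : Type) [Group Γ] (r : ℕ) (γ : Γ) :
    (Γ →* Matrix.SpecialLinearGroup (Fin r) ℂ) → ℂ :=
  fun ρ => Matrix.trace (ρ γ : Matrix (Fin r) (Fin r) ℂ)

/-- The algebra of trace polynomials: the `ℂ`-subalgebra of functions on the set of
representations `Γ → SL_r(ℂ)` generated by the trace functions of the elements of `Γ`.
By Procesi's theorem these are exactly the regular functions on the `SL_r`-character variety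
of `Γ`, so a set of representations is Zariski dense in the character variety exactly when
every trace polynomial vanishing on it vanishes identically. -/
noncomputable def traceAlgebra (Γ : Type) [Group Γ] (r : ℕ) :
    Subalgebra ℂ ((Γ →* Matrix.SpecialLinearGroup (Fin r) ℂ) → ℂ) :=
  Algebra.adjoin ℂ (Set.range (traceFun Γ r))

end Vale.Agent.H1.P002
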