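import Mathlib

/-!
Simultaneous triangularisation of a commuting family, in the form needed here:
a representation of a commutative group on a finite-dimensional complex vector space has
the same traces and determinants as a direct sum of characters.
-/

namespace Vale.Agent.H1.P002

open Module

section TraceQuot

variable {R V : Type*} [CommRing R] [AddCommGroup V]
    [Module R V] [Module.Finite R V]
    (W : Submodule R V) [Module.Free R W] [Module.Finite R W] [Module.Free R (V ⧸ W)]

open Module.Basis in
theorem trace_eq_trace_restrict_add_trace_mapQ (e : V →ₗ[R] V) (he : W ≤ W.comap e) :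
    LinearMap.trace R V e =
      LinearMap.trace R W (e.restrict he) + LinearMap.trace R (V ⧸ W) (W.mapQ W e he) := by
  classical
  let m := Module.Free.ChooseBasisIndex R W
  let bW : Basis m R W := Module.Free.chooseBasis R W
  let n := Module.Free.ChooseBasisIndex R (V ⧸ W)
  let bQ : Basis n R (V ⧸ W) := Module.Free.chooseBasis R (V ⧸ W)
  let b := sumQuot bW bQ
  let A : Matrix m m R := LinearMap.toMatrix bW bW (e.restrict he)
  let B : Matrix m n R := Matrix.of fun i l ↦
    ((sumQuot bW bQ).repr (e ((sumQuot bW bQ) (Sum.inr l)))) (Sum.inl i)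
  let D : Matrix n n R := LinearMap.toMatrix bQ bQ (W.mapQ W e he)
  suffices LinearMap.toMatrix b b e = Matrix.fromBlocks A B 0 D by
    rw [LinearMap.trace_eq_matrix_trace R b, this, LinearMap.trace_eq_matrix_trace R bW,
      LinearMap.trace_eq_matrix_trace R bQ]
    simp [Matrix.trace, Fintype.sum_sum_type, A, D]
  ext u v
  cases u with
  | inl i =>
    cases v with
    | inl k =>
      simp only [b, sumQuot_inl, Matrix.fromBlocks_apply₁₁, A, LinearMap.toMatrix_apply]
      apply sumQuot_repr_inl_of_mem
    | inr l => simp [b, LinearMap.toMatrix_apply, Matrix.fromBlocks_apply₁₂, B]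
  | inr j =>
    cases v with
    | inl k =>
      suffices W.mkQ (e (bW k)) = 0 by simp [LinearMap.toMatrix_apply, b, this]
      rw [← LinearMap.mem_ker, Submodule.ker_mkQ]
      exact he (Submodule.coe_mem (bW k))
    | inr l =>
      simp only [LinearMap.toMatrix_apply, sumQuot_repr_inr,
        Matrix.fromBlocks_apply₂₂, b, D]
      rw [← sumQuot_inr bW bQ l, W.mapQ_apply]
      simp

end TraceQuot

theorem exists_common_eigenvector {ι : Type*} :
    ∀ (n : ℕ) (V : Type) [AddCommGroup V] [Module ℂ V] [FiniteDimensional ℂ V] [Nontrivial V]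
      (f : ι → Module.End ℂ V), Module.finrank ℂ V = n → (∀ i j, Commute (f i) (f j)) →
      ∃ v : V, v ≠ 0 ∧ ∃ μ : ι → ℂ, ∀ i, f i v = μ i • v := by
  intro n
  induction n using Nat.strong_induction_on with
  | _ n ih =>
    intro V _ _ _ _ f hn hc
    by_cases hs : ∀ i, ∃ c : ℂ, f i = c • 1
    · obtain ⟨v, hv⟩ := exists_ne (0 : V)
      choose c hc' using hs
      exact ⟨v, hv, c, fun i => by rw [hc' i]; simp⟩
    · push Not at hs
      obtain ⟨i₀, hi₀⟩ := hs
      obtain ⟨μ₀, hμ₀⟩ := Module.End.exists_eigenvalue (f i₀)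
      have hE : Module.End.eigenspace (f i₀) μ₀ ≠ ⊥ := hμ₀
      have hE' : Module.End.eigenspace (f i₀) μ₀ ≠ ⊤ := by
        intro htop
        apply hi₀ μ₀
        ext x
        have hx : x ∈ Module.End.eigenspace (f i₀) μ₀ := by rw [htop]; trivial
        rw [Module.End.mem_eigenspace_iff] at hx
        simpa using hx
      have hmap : ∀ i, ∀ x ∈ Module.End.eigenspace (f i₀) μ₀,
          f i x ∈ Module.End.eigenspace (f i₀) μ₀ := by
        intro i x hx
        rw [Module.End.mem_eigenspace_iff] at hx ⊢
        have h1 : f i₀ (f i x) = f i (f i₀ x) := by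
          have := congrArg (fun g : Module.End ℂ V => g x) (hc i₀ i).eq
          simpa using this
        rw [h1, hx, map_smul]
      have hlt : finrank ℂ (Module.End.eigenspace (f i₀) μ₀) < n :=
        hn ▸ Submodule.finrank_lt hE'
      have : Nontrivial (Module.End.eigenspace (f i₀) μ₀) :=
        Submodule.nontrivial_iff_ne_bot.mpr hE
      obtain ⟨w, hw, μ, hμ⟩ := ih _ hlt (Module.End.eigenspace (f i₀) μ₀)
        (fun i => (f i).restrict (hmap i)) rfl
        (fun i j => LinearMap.restrict_commute (hc i j) _ _)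
      refine ⟨w, by simpa using hw, μ, fun i => ?_⟩
      have := congrArg Subtype.val (hμ i)
      simpa using this

theorem exists_chars {Γ : Type*} [CommGroup Γ] :
    ∀ (n : ℕ) (V : Type) [AddCommGroup V] [Module ℂ V] [FiniteDimensional ℂ V]
      (ρ : Γ →* Module.End ℂ V), Module.finrank ℂ V = n →
      ∃ χ : Fin n → (Γ →* ℂˣ), ∀ γ,
        LinearMap.trace ℂ V (ρ γ) = ∑ i, ((χ i γ : ℂˣ) : ℂ) ∧
        LinearMap.det (ρ γ) = ∏ i, ((χ i γ : ℂˣ) : ℂ) := by
  intro n
  induction n with
  | zero =>
    intro V _ _ _ ρ hn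
    refine ⟨fun i => i.elim0, fun γ => ?_⟩
    have hsub : Subsingleton V := Module.finrank_zero_iff.mp hn
    constructor
    · have : ρ γ = 0 := Subsingleton.elim _ _
      simp [this]
    · simp [LinearMap.det_eq_one_of_finrank_eq_zero hn]
  | succ n ih =>
    intro V _ _ _ ρ hn
    have hnt : Nontrivial V := Module.nontrivial_of_finrank_pos (R := ℂ) (by omega)
    obtain ⟨v, hv, μ, hμ⟩ := exists_common_eigenvector (n + 1) V (fun γ => ρ γ) hn
      (fun i j => (Commute.all i j).map ρ)
    have hμ1 : μ 1 = 1 := by
      have h := hμ 1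
      simp only [map_one, Module.End.one_apply] at h
      have h2 : (1 - μ 1) • v = 0 := by rw [sub_smul, one_smul, ← h, sub_self]
      rcases smul_eq_zero.mp h2 with h3 | h3
      · exact (sub_eq_zero.mp h3).symm
      · exact absurd h3 hv
    have hμmul : ∀ a b, μ (a * b) = μ a * μ b := by
      intro a b
      have h := hμ (a * b)
      simp only [map_mul, Module.End.mul_apply] at h
      rw [hμ b, map_smul, hμ a, smul_smul] at h
      have h2 : (μ (a * b) - μ b * μ a) • v = 0 := by rw [sub_smul, ← h, sub_self]
      rcases smul_eq_zero.mp h2 with h3 | h3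
      · rw [sub_eq_zero.mp h3, mul_comm]
      · exact absurd h3 hv
    let μhom : Γ →* ℂ := { toFun := μ, map_one' := hμ1, map_mul' := hμmul }
    let χ₀ : Γ →* ℂˣ := μhom.toHomUnits
    have hχ₀ : ∀ γ, ((χ₀ γ : ℂˣ) : ℂ) = μ γ := fun γ => rfl
    let W : Submodule ℂ V := Submodule.span ℂ {v}
    have hW : ∀ γ, W ≤ W.comap (ρ γ) := by
      intro γ
      refine Submodule.span_le.mpr ?_
      intro x hx
      rw [Set.mem_singleton_iff] at hx
      subst hx
      show ρ γ x ∈ W
      rw [hμ γ]
      exact Submodule.smul_mem _ _ (Submodule.mem_span_singleton_self x)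
    let ρbar : Γ →* Module.End ℂ (V ⧸ W) :=
      { toFun := fun γ => W.mapQ W (ρ γ) (hW γ)
        map_one' := by
          apply Submodule.linearMap_qext
          ext x
          simp
        map_mul' := by
          intro a b
          apply Submodule.linearMap_qext
          ext x
          simp }
    have hfr : Module.finrank ℂ (V ⧸ W) = n := by
      have h1 := Submodule.finrank_quotient_add_finrank W
      have h2 : Module.finrank ℂ W = 1 := finrank_span_singleton hv
      omega
    obtain ⟨χ', hχ'⟩ := ih (V ⧸ W) ρbar hfr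
    refine ⟨Fin.cons χ₀ χ', fun γ => ?_⟩
    have hres : LinearMap.restrict (ρ γ) (p := W) (q := W) (hW γ) = μ γ • LinearMap.id := by
      ext ⟨x, hx⟩
      obtain ⟨c, rfl⟩ := Submodule.mem_span_singleton.mp hx
      show ρ γ (c • v) = μ γ • (c • v)
      rw [map_smul, hμ γ, smul_comm]
    have h2 : Module.finrank ℂ W = 1 := finrank_span_singleton hv
    constructor
    · rw [trace_eq_trace_restrict_add_trace_mapQ W (ρ γ) (hW γ), hres, Fin.sum_univ_succ]
      have := (hχ' γ).1
      simp only [ρbar, MonoidHom.coe_mk, OneHom.coe_mk] at this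
      rw [this]
      simp [hχ₀, h2]
    · rw [LinearMap.det_eq_det_mul_det W (ρ γ) (hW γ), hres, Fin.prod_univ_succ]
      have := (hχ' γ).2
      simp only [ρbar, MonoidHom.coe_mk, OneHom.coe_mk] at this
      rw [this]
      simp [hχ₀, h2]

end Vale.Agent.H1.P002
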