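import Mathlib
import Vale.Agent.H1.P002.Defs
import Vale.Agent.H1.P002.Triang

namespace Vale.Agent.H1.P002

open Matrix

variable {Γ : Type} [CommGroup Γ] {r : ℕ}

/-- A tuple of characters whose product is trivial. -/
def IsSLTuple (χ : Fin r → (Γ →* ℂˣ)) : Prop := ∀ γ, ∏ i, χ i γ = 1

/-- The diagonal representation attached to a tuple of characters with trivial product. -/
noncomputable def diagRep (χ : Fin r → (Γ →* ℂˣ)) (h : IsSLTuple χ) :
    Γ →* Matrix.SpecialLinearGroup (Fin r) ℂ where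
  toFun γ := ⟨Matrix.diagonal (fun i => ((χ i γ : ℂˣ) : ℂ)), by
    rw [Matrix.det_diagonal]
    have := congrArg Units.val (h γ)
    simpa using this⟩
  map_one' := by
    ext i j
    simp [Matrix.diagonal_apply, Matrix.one_apply]
  map_mul' a b := by
    apply Subtype.ext
    show Matrix.diagonal (fun i => ((χ i (a * b) : ℂˣ) : ℂ)) =
      Matrix.diagonal (fun i => ((χ i a : ℂˣ) : ℂ)) * Matrix.diagonal (fun i => ((χ i b : ℂˣ) : ℂ))
    rw [Matrix.diagonal_mul_diagonal]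
    simp

theorem traceFun_diagRep (χ : Fin r → (Γ →* ℂˣ)) (h : IsSLTuple χ) (γ : Γ) :
    traceFun Γ r γ (diagRep χ h) = ∑ i, ((χ i γ : ℂˣ) : ℂ) := by
  show Matrix.trace (Matrix.diagonal (fun i => ((χ i γ : ℂˣ) : ℂ))) = _
  simp [Matrix.trace_diagonal]

/-- Every representation of a commutative group has the traces of a diagonal one. -/
theorem exists_diag (ρ : Γ →* Matrix.SpecialLinearGroup (Fin r) ℂ) :
    ∃ (χ : Fin r → (Γ →* ℂˣ)) (h : IsSLTuple χ), ∀ γ,
      traceFun Γ r γ ρ = traceFun Γ r γ (diagRep χ h) := by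
  let ρlin : Γ →* Module.End ℂ (Fin r → ℂ) :=
    { toFun := fun γ => Matrix.toLin' (ρ γ : Matrix (Fin r) (Fin r) ℂ)
      map_one' := by simp; rfl
      map_mul' := by intro a b; simp [Matrix.toLin'_mul]; rfl }
  obtain ⟨χ, hχ⟩ := exists_chars r (Fin r → ℂ) ρlin (by simp)
  have hsl : IsSLTuple χ := by
    intro γ
    apply Units.ext
    have h2 := (hχ γ).2
    simp only [ρlin, MonoidHom.coe_mk, OneHom.coe_mk, LinearMap.det_toLin'] at h2
    rw [Units.coe_prod, ← h2]
    simp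
  refine ⟨χ, hsl, fun γ => ?_⟩
  rw [traceFun_diagRep]
  have h1 := (hχ γ).1
  simp only [ρlin, MonoidHom.coe_mk, OneHom.coe_mk, Matrix.trace_toLin'_eq] at h1
  exact h1

/-- A trace polynomial takes the same value on two representations with the same traces. -/
theorem traceAlgebra_congr {ρ₁ ρ₂ : Γ →* Matrix.SpecialLinearGroup (Fin r) ℂ}
    (h : ∀ γ, traceFun Γ r γ ρ₁ = traceFun Γ r γ ρ₂)
    {f : (Γ →* Matrix.SpecialLinearGroup (Fin r) ℂ) → ℂ} (hf : f ∈ traceAlgebra Γ r) :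
    f ρ₁ = f ρ₂ := by
  unfold traceAlgebra at hf
  induction hf using Algebra.adjoin_induction with
  | mem x hx =>
    obtain ⟨γ, rfl⟩ := hx
    exact h γ
  | algebraMap c => simp
  | add x y _ _ hx hy => simp [hx, hy]
  | mul x y _ _ hx hy => simp [hx, hy]


/-- For a tuple of characters `χ`, the monoid homomorphism `g ↦ ∏ i, χ i (g i)`. -/
noncomputable def psiU (χ : Fin r → (Γ →* ℂˣ)) : (Fin r → Γ) →* ℂˣ where
  toFun g := ∏ i, χ i (g i)
  map_one' := by simp
  map_mul' a b := by simp [Finset.prod_mul_distrib]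

/-- The same with values in `ℂ`. -/
noncomputable def psiHom (χ : Fin r → (Γ →* ℂˣ)) : (Fin r → Γ) →* ℂ :=
  (Units.coeHom ℂ).comp (psiU χ)

theorem psiHom_apply (χ : Fin r → (Γ →* ℂˣ)) (g : Fin r → Γ) :
    psiHom χ g = ((psiU χ g : ℂˣ) : ℂ) := rfl

theorem psiU_mulSingle (χ : Fin r → (Γ →* ℂˣ)) (i : Fin r) (γ : Γ) :
    psiU χ (Pi.mulSingle i γ) = χ i γ := by
  show ∏ j, χ j ((Pi.mulSingle i γ : Fin r → Γ) j) = χ i γ
  rw [Finset.prod_eq_single i]
  · simp
  · intro j _ hj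
    simp [Pi.mulSingle_eq_of_ne hj]
  · simp

/-- Restricted to diagonal representations, a trace polynomial is a finite linear combination
of the functions `χ ↦ ∏ i, χ i (g i)`. -/
theorem exists_coeffs {f : (Γ →* Matrix.SpecialLinearGroup (Fin r) ℂ) → ℂ}
    (hf : f ∈ traceAlgebra Γ r) :
    ∃ c : MonoidAlgebra ℂ (Fin r → Γ), ∀ (χ : Fin r → (Γ →* ℂˣ)) (h : IsSLTuple χ),
      f (diagRep χ h) = MonoidAlgebra.lift ℂ ℂ (Fin r → Γ) (psiHom χ) c := by
  unfold traceAlgebra at hf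
  induction hf using Algebra.adjoin_induction with
  | mem x hx =>
    obtain ⟨γ, rfl⟩ := hx
    refine ⟨∑ i, MonoidAlgebra.of ℂ (Fin r → Γ) (Pi.mulSingle i γ), fun χ h => ?_⟩
    rw [traceFun_diagRep, map_sum]
    refine Finset.sum_congr rfl fun i _ => ?_
    rw [MonoidAlgebra.lift_of, psiHom_apply, psiU_mulSingle]
  | algebraMap c => exact ⟨algebraMap ℂ _ c, fun χ h => by simp⟩
  | add x y _ _ hx hy =>
    obtain ⟨c1, h1⟩ := hx
    obtain ⟨c2, h2⟩ := hy
    exact ⟨c1 + c2, fun χ h => by simp [h1 χ h, h2 χ h]⟩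
  | mul x y _ _ hx hy =>
    obtain ⟨c1, h1⟩ := hx
    obtain ⟨c2, h2⟩ := hy
    exact ⟨c1 * c2, fun χ h => by simp [h1 χ h, h2 χ h]⟩

section Core

variable {R : Type} [CommRing R] (σ : R →+* ℂ)

/-- Tuples of `Rˣ`-valued characters with trivial product, as a group. -/
def intSL (Γ : Type) [CommGroup Γ] (r : ℕ) (R : Type) [CommRing R] :
    Subgroup (Fin r → (Γ →* Rˣ)) where
  carrier := {χ | ∀ γ, ∏ i, χ i γ = 1}
  mul_mem' := by
    intro a b ha hb γ
    have ha' : ∏ i, a i γ = 1 := ha γ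
    have hb' : ∏ i, b i γ = 1 := hb γ
    show ∏ i, (a i * b i) γ = 1
    simp [Finset.prod_mul_distrib, ha', hb']
  one_mem' := by
    intro γ
    show ∏ i, (1 : Γ →* Rˣ) γ = 1
    simp
  inv_mem' := by
    intro a ha γ
    have ha' : ∏ i, a i γ = 1 := ha γ
    show ∏ i, (a i)⁻¹ γ = 1
    simp [Finset.prod_inv_distrib, ha']

theorem intSL_prod (χ₀ : intSL Γ r R) (γ : Γ) : ∏ i, χ₀.1 i γ = 1 := χ₀.2 γ

/-- The complex tuple of characters attached to an `Rˣ`-valued one. -/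
def toC (χ₀ : Fin r → (Γ →* Rˣ)) : Fin r → (Γ →* ℂˣ) :=
  fun i => (Units.map (σ : R →* ℂ)).comp (χ₀ i)

theorem isSLTuple_toC (χ₀ : intSL Γ r R) : IsSLTuple (toC σ χ₀.1) := by
  intro γ
  have h2 : ∏ i, χ₀.1 i γ = 1 := intSL_prod χ₀ γ
  show ∏ i, (Units.map (σ : R →* ℂ)) (χ₀.1 i γ) = 1
  rw [← map_prod, h2, map_one]

/-- The diagonal representation over `R` attached to a tuple in `intSL`. -/
def diagRep₀ (χ₀ : intSL Γ r R) : Γ →* Matrix.SpecialLinearGroup (Fin r) R where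
  toFun γ := ⟨Matrix.diagonal (fun i => ((χ₀.1 i γ : Rˣ) : R)), by
    rw [Matrix.det_diagonal]
    have h2 : ∏ i, χ₀.1 i γ = 1 := intSL_prod χ₀ γ
    have := congrArg Units.val h2
    simpa using this⟩
  map_one' := by
    ext i j
    simp [Matrix.diagonal_apply, Matrix.one_apply]
  map_mul' a b := by
    apply Subtype.ext
    show Matrix.diagonal (fun i => ((χ₀.1 i (a * b) : Rˣ) : R)) =
      Matrix.diagonal (fun i => ((χ₀.1 i a : Rˣ) : R)) *
        Matrix.diagonal (fun i => ((χ₀.1 i b : Rˣ) : R))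
    rw [Matrix.diagonal_mul_diagonal]
    simp

theorem map_diagRep₀ (χ₀ : intSL Γ r R) :
    (Matrix.SpecialLinearGroup.map σ).comp (diagRep₀ χ₀) =
      diagRep (toC σ χ₀.1) (isSLTuple_toC σ χ₀) := by
  ext γ i j
  show σ (Matrix.diagonal (fun i => ((χ₀.1 i γ : Rˣ) : R)) i j) =
    Matrix.diagonal (fun i => ((toC σ χ₀.1 i γ : ℂˣ) : ℂ)) i j
  by_cases hij : i = j
  · subst hij
    simp [toC]
  · simp [Matrix.diagonal_apply_ne _ hij]

/-- The character `χ₀ ↦ ∏ i, σ (χ₀ i (g i))` of the group `intSL`. -/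
noncomputable def thetaHom (g : Fin r → Γ) : intSL Γ r R →* ℂ where
  toFun χ₀ := psiHom (toC σ χ₀.1) g
  map_one' := by
    simp [psiHom_apply, psiU, toC]
  map_mul' a b := by
    simp [psiHom_apply, psiU, toC, Finset.prod_mul_distrib]

end Core

section Core2

variable {R : Type} [CommRing R] (σ : R →+* ℂ)

theorem thetaHom_apply (g : Fin r → Γ) (χ₀ : intSL Γ r R) :
    thetaHom σ g χ₀ = ((psiU (toC σ χ₀.1) g : ℂˣ) : ℂ) := rfl

/-- The element of `intSL` with `l` in position `i`, `l⁻¹` in position `j`. -/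
def pairElt (i j : Fin r) (_hij : i ≠ j) (l : Γ →* Rˣ) : intSL Γ r R :=
  ⟨Pi.mulSingle i l * Pi.mulSingle j l⁻¹, by
    intro γ
    show ∏ m, ((Pi.mulSingle i l : Fin r → (Γ →* Rˣ)) m *
      (Pi.mulSingle j l⁻¹ : Fin r → (Γ →* Rˣ)) m) γ = 1
    simp only [MonoidHom.mul_apply]
    rw [Finset.prod_mul_distrib]
    have h1 : ∏ m, ((Pi.mulSingle i l : Fin r → (Γ →* Rˣ)) m) γ = l γ := by
      rw [Finset.prod_eq_single i]
      · simp
      · intro m _ hm
        simp [Pi.mulSingle_eq_of_ne hm]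
      · simp
    have h2 : ∏ m, ((Pi.mulSingle j l⁻¹ : Fin r → (Γ →* Rˣ)) m) γ = (l γ)⁻¹ := by
      rw [Finset.prod_eq_single j]
      · simp
      · intro m _ hm
        simp [Pi.mulSingle_eq_of_ne hm]
      · simp
    rw [h1, h2, mul_inv_cancel]⟩

theorem psiU_pairElt (i j : Fin r) (hij : i ≠ j) (l : Γ →* Rˣ) (g : Fin r → Γ) :
    psiU (toC σ (pairElt i j hij l).1) g =
      Units.map (σ : R →* ℂ) (l (g i)) * (Units.map (σ : R →* ℂ) (l (g j)))⁻¹ := by
  show ∏ m, (Units.map (σ : R →* ℂ))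
    (((Pi.mulSingle i l : Fin r → (Γ →* Rˣ)) m * (Pi.mulSingle j l⁻¹ : Fin r → (Γ →* Rˣ)) m)
      (g m)) = _
  simp only [MonoidHom.mul_apply, map_mul]
  rw [Finset.prod_mul_distrib]
  have h1 : ∏ m, (Units.map (σ : R →* ℂ))
      (((Pi.mulSingle i l : Fin r → (Γ →* Rˣ)) m) (g m)) = Units.map (σ : R →* ℂ) (l (g i)) := by
    rw [Finset.prod_eq_single i]
    · simp
    · intro m _ hm
      simp [Pi.mulSingle_eq_of_ne hm]
    · simp
  have h2 : ∏ m, (Units.map (σ : R →* ℂ))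
      (((Pi.mulSingle j l⁻¹ : Fin r → (Γ →* Rˣ)) m) (g m)) =
        (Units.map (σ : R →* ℂ) (l (g j)))⁻¹ := by
    rw [Finset.prod_eq_single j]
    · simp
    · intro m _ hm
      simp [Pi.mulSingle_eq_of_ne hm]
    · simp
  rw [h1, h2]

/-- Key lemma: if two of the characters `thetaHom σ g`, `thetaHom σ g'` of the group of
integral diagonal tuples agree, then `g` and `g'` give the same function on all complex
tuples with trivial product. -/
theorem psi_eq_of_theta_eq
    (hsep : ∀ γ : Γ, γ ≠ 1 → ∃ l : Γ →* Rˣ, σ (l γ : R) ≠ 1)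
    {g g' : Fin r → Γ} (h : thetaHom σ g = thetaHom σ g')
    (χ : Fin r → (Γ →* ℂˣ)) (hχ : IsSLTuple χ) : psiHom χ g = psiHom χ g' := by
  have hk : ∀ i j, g i / g' i = g j / g' j := by
    intro i j
    by_contra hne
    have hij : i ≠ j := by
      rintro rfl
      exact hne rfl
    obtain ⟨l, hl⟩ := hsep ((g i / g' i) / (g j / g' j)) (by rwa [Ne, div_eq_one])
    apply hl
    have h1 := DFunLike.congr_fun h (pairElt i j hij l)
    rw [thetaHom_apply, thetaHom_apply, psiU_pairElt, psiU_pairElt] at h1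
    have h2 := Units.ext h1
    have h3 : Units.map (σ : R →* ℂ) (l ((g i / g' i) / (g j / g' j))) = 1 := by
      simp only [map_div]
      rw [div_eq_one, div_eq_div_iff_mul_eq_mul]
      rw [← div_eq_mul_inv, ← div_eq_mul_inv, div_eq_div_iff_mul_eq_mul] at h2
      rw [h2, mul_comm]
    have h4 := congrArg Units.val h3
    rw [Units.coe_map, Units.val_one] at h4
    exact h4
  rw [psiHom_apply, psiHom_apply]
  congr 1
  have hg : g = (fun i => g i / g' i) * g' := by
    ext i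
    simp
  rw [hg, map_mul]
  have hone : psiU χ (fun i => g i / g' i) = 1 := by
    rcases isEmpty_or_nonempty (Fin r) with he | hne
    · show ∏ i, χ i (g i / g' i) = 1
      simp
    · obtain ⟨i₀⟩ := hne
      show ∏ i, χ i (g i / g' i) = 1
      have : ∀ i, χ i (g i / g' i) = χ i (g i₀ / g' i₀) := fun i => by rw [hk i i₀]
      simp only [this]
      exact hχ _
  rw [hone, one_mul]

/-- Core theorem: if `Rˣ`-valued characters of `Γ` separate the points of `Γ` after applying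
`σ : R → ℂ`, then the representations `Γ → SL_r(R)` are Zariski dense in the `SL_r`-character
variety of the commutative group `Γ`. -/
theorem core (hsep : ∀ γ : Γ, γ ≠ 1 → ∃ l : Γ →* Rˣ, σ (l γ : R) ≠ 1)
    {f : (Γ →* Matrix.SpecialLinearGroup (Fin r) ℂ) → ℂ} (hf : f ∈ traceAlgebra Γ r)
    (hint : ∀ ρ₀ : Γ →* Matrix.SpecialLinearGroup (Fin r) R,
      f ((Matrix.SpecialLinearGroup.map σ).comp ρ₀) = 0)
    (ρ : Γ →* Matrix.SpecialLinearGroup (Fin r) ℂ) : f ρ = 0 := by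
  classical
  obtain ⟨c, hc⟩ := exists_coeffs hf
  obtain ⟨χ, hχ, htr⟩ := exists_diag ρ
  rw [traceAlgebra_congr htr hf, hc χ hχ]
  have hvan : ∀ χ₀ : intSL Γ r R,
      MonoidAlgebra.lift ℂ ℂ (Fin r → Γ) (psiHom (toC σ χ₀.1)) c = 0 := by
    intro χ₀
    rw [← hc _ (isSLTuple_toC σ χ₀), ← map_diagRep₀]
    exact hint _
  have h0 : Finsupp.linearCombination ℂ (fun θ : intSL Γ r R →* ℂ => (θ : intSL Γ r R → ℂ))
      (Finsupp.mapDomain (thetaHom σ) c.coeff) = 0 := by
    rw [Finsupp.linearCombination_mapDomain]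
    ext χ₀
    have h1 := hvan χ₀
    rw [MonoidAlgebra.lift_apply] at h1
    rw [Finsupp.linearCombination_apply, Finsupp.sum, Finset.sum_apply]
    rw [Finsupp.sum] at h1
    simpa [thetaHom, psiHom_apply] using h1
  have hli := linearIndependent_monoidHom (intSL Γ r R) ℂ
  have hmd : Finsupp.mapDomain (thetaHom σ) c.coeff = 0 := by
    apply hli
    rw [h0]
    simp
  obtain ⟨κ, hκ⟩ : ∃ κ : (intSL Γ r R →* ℂ) → ℂ, ∀ g, psiHom χ g = κ (thetaHom σ g) := by
    refine ⟨fun θ => if h : ∃ g, thetaHom σ g = θ then psiHom χ h.choose else 0, fun g => ?_⟩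
    have hex : ∃ g', thetaHom σ g' = thetaHom σ g := ⟨g, rfl⟩
    beta_reduce
    rw [dif_pos hex]
    exact (psi_eq_of_theta_eq σ hsep hex.choose_spec χ hχ).symm
  rw [MonoidAlgebra.lift_apply]
  have h5 : (c.coeff.sum fun g a => a • (psiHom χ) g) =
      Finsupp.linearCombination ℂ κ (Finsupp.mapDomain (thetaHom σ) c.coeff) := by
    rw [Finsupp.linearCombination_mapDomain, Finsupp.linearCombination_apply]
    refine Finsupp.sum_congr fun g _ => ?_
    simp [hκ g]
  rw [h5, hmd]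
  simp

end Core2

end Vale.Agent.H1.P002
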