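import Mathlib
import Vale.Agent.H1.P002.Core

namespace Vale.Agent.H1.P002

open NumberField

/-- An element of an intermediate field of `ℂ/ℚ` that is integral over `ℤ`, as an element of
the ring of integers. -/
noncomputable def mkInt (L : IntermediateField ℚ ℂ) (x : ℂ) (hx : x ∈ L) (hi : IsIntegral ℤ x) :
    𝓞 L :=
  ⟨⟨x, hx⟩, (isIntegral_algebraMap_iff (algebraMap L ℂ).injective).mp hi⟩

/-- The embedding of the ring of integers of an intermediate field into `ℂ`. -/
noncomputable def toCplx (L : IntermediateField ℚ ℂ) : 𝓞 L →+* ℂ :=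
  (algebraMap L ℂ).comp (algebraMap (𝓞 L) L)

theorem toCplx_mkInt (L : IntermediateField ℚ ℂ) (x : ℂ) (hx : x ∈ L) (hi : IsIntegral ℤ x) :
    toCplx L (mkInt L x hx hi) = x := rfl

theorem toCplx_injective (L : IntermediateField ℚ ℂ) : Function.Injective (toCplx L) := by
  intro a b h
  apply NumberField.RingOfIntegers.ext
  exact (algebraMap L ℂ).injective h


theorem sqrtTwo_mul_self : ((Real.sqrt 2 : ℝ) : ℂ) * ((Real.sqrt 2 : ℝ) : ℂ) = 2 := by
  rw [← Complex.ofReal_mul, Real.mul_self_sqrt (by norm_num)]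
  norm_num

theorem isIntegral_sqrtTwo : IsIntegral ℤ ((Real.sqrt 2 : ℝ) : ℂ) := by
  refine ⟨Polynomial.X ^ 2 - Polynomial.C 2, Polynomial.monic_X_pow_sub_C 2 (by norm_num), ?_⟩
  simp [pow_two, sqrtTwo_mul_self]

/-- The fundamental unit `1 + √2`, as a unit of the ring of integers of any intermediate field
containing `√2`. -/
noncomputable def unitU (L : IntermediateField ℚ ℂ) (hs : ((Real.sqrt 2 : ℝ) : ℂ) ∈ L) : (𝓞 L)ˣ :=
  Units.mkOfMulEqOne
    (mkInt L (1 + ((Real.sqrt 2 : ℝ) : ℂ)) (add_mem (one_mem _) hs)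
      (isIntegral_one.add isIntegral_sqrtTwo))
    (mkInt L (((Real.sqrt 2 : ℝ) : ℂ) - 1) (sub_mem hs (one_mem _))
      (isIntegral_sqrtTwo.sub isIntegral_one))
    (by
      apply toCplx_injective
      rw [map_mul, toCplx_mkInt, toCplx_mkInt, map_one]
      have := sqrtTwo_mul_self
      linear_combination this)

theorem toCplx_unitU (L : IntermediateField ℚ ℂ) (hs : ((Real.sqrt 2 : ℝ) : ℂ) ∈ L) :
    toCplx L (unitU L hs : 𝓞 L) = 1 + ((Real.sqrt 2 : ℝ) : ℂ) := rfl

theorem toCplx_unitU_zpow (L : IntermediateField ℚ ℂ) (hs : ((Real.sqrt 2 : ℝ) : ℂ) ∈ L)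
    (m : ℤ) (hm : m ≠ 0) : toCplx L ((unitU L hs ^ m : (𝓞 L)ˣ) : 𝓞 L) ≠ 1 := by
  intro h
  have h1 : toCplx L ((unitU L hs ^ m : (𝓞 L)ˣ) : 𝓞 L) =
      ((Units.map (toCplx L : 𝓞 L →* ℂ) (unitU L hs) ^ m : ℂˣ) : ℂ) := by
    rw [← map_zpow]
    rfl
  rw [h1, Units.val_zpow_eq_zpow_val] at h
  have h2 : ((Units.map (toCplx L : 𝓞 L →* ℂ) (unitU L hs) : ℂˣ) : ℂ) =
      ((1 + Real.sqrt 2 : ℝ) : ℂ) := by
    rw [Units.coe_map]
    show toCplx L (unitU L hs : 𝓞 L) = _
    rw [toCplx_unitU]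
    push_cast
    rfl
  rw [h2, ← Complex.ofReal_zpow] at h
  have h3 : (1 + Real.sqrt 2 : ℝ) ^ m = 1 := by exact_mod_cast h
  have h4 : (0 : ℝ) < Real.sqrt 2 := Real.sqrt_pos.mpr (by norm_num)
  exact hm ((zpow_eq_one_iff_right₀ (by positivity) (by linarith)).mp h3)

/-- Potential density of integral points for finitely generated commutative groups. -/
theorem abelian_density (Γ : Type) [CommGroup Γ] [Group.FG Γ] (r : ℕ) :
    ∃ (L : Type) (_ : Field L) (_ : NumberField L) (σ : L →+* ℂ),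
      ∀ f ∈ traceAlgebra Γ r,
        (∀ ρ₀ : Γ →* Matrix.SpecialLinearGroup (Fin r) (NumberField.RingOfIntegers L),
            f ((Matrix.SpecialLinearGroup.map
              (σ.comp (algebraMap (NumberField.RingOfIntegers L) L))).comp ρ₀) = 0) →
        ∀ ρ : Γ →* Matrix.SpecialLinearGroup (Fin r) ℂ, f ρ = 0 := by
  classical
  obtain ⟨ι, j, _, _, p, hp, e, ⟨E⟩⟩ := CommGroup.equiv_free_prod_prod_multiplicative_zmod Γ
  let N : ℕ := ∏ i, p i ^ e i
  have hN : N ≠ 0 := Finset.prod_ne_zero_iff.mpr fun i _ => pow_ne_zero _ (hp i).ne_zero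
  let ζ : ℂ := Complex.exp (2 * Real.pi * Complex.I / N)
  have hζ : IsPrimitiveRoot ζ N := Complex.isPrimitiveRoot_exp N hN
  let s : ℂ := ((Real.sqrt 2 : ℝ) : ℂ)
  let L : IntermediateField ℚ ℂ := IntermediateField.adjoin ℚ ({s, ζ} : Set ℂ)
  have hsL : s ∈ L := IntermediateField.subset_adjoin ℚ _ (by simp)
  have hζL : ζ ∈ L := IntermediateField.subset_adjoin ℚ _ (by simp)
  have hfd : FiniteDimensional ℚ L := by
    apply IntermediateField.finiteDimensional_adjoin
    intro x hx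
    rcases hx with rfl | rfl
    · exact isIntegral_sqrtTwo.tower_top
    · exact (hζ.isIntegral (Nat.pos_of_ne_zero hN)).tower_top
  have hnf : NumberField L := { to_charZero := inferInstance, to_finiteDimensional := hfd }
  refine ⟨L, inferInstance, hnf, algebraMap L ℂ, fun f hf hint => core (toCplx L) ?_ hf hint⟩
  intro γ hγ
  have hE : E γ ≠ 1 := fun h => hγ ((MulEquiv.map_eq_one_iff E).mp h)
  by_cases h1 : (E γ).1 = 1
  · have h2 : (E γ).2 ≠ 1 := fun h => hE (Prod.ext h1 h)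
    obtain ⟨i, hi⟩ : ∃ i, (E γ).2 i ≠ 1 := by
      by_contra hcon
      push Not at hcon
      exact h2 (funext hcon)
    have hq : p i ^ e i ≠ 0 := pow_ne_zero _ (hp i).ne_zero
    have : NeZero (p i ^ e i) := ⟨hq⟩
    have hdvd : p i ^ e i ∣ N := Finset.dvd_prod_of_mem _ (Finset.mem_univ i)
    have hprim : IsPrimitiveRoot (ζ ^ (N / (p i ^ e i))) (p i ^ e i) :=
      IsPrimitiveRoot.pow (Nat.pos_of_ne_zero hN) hζ (Nat.div_mul_cancel hdvd).symm
    have hprim' : IsPrimitiveRoot (mkInt L (ζ ^ (N / (p i ^ e i))) (pow_mem hζL _)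
        (hprim.isIntegral (Nat.pos_of_ne_zero hq))) (p i ^ e i) := by
      apply IsPrimitiveRoot.of_map_of_injective (f := toCplx L) _ (toCplx_injective L)
      rw [toCplx_mkInt]
      exact hprim
    obtain ⟨φ, hφ⟩ := ZMod.exists_monoidHom_apply_ne_one ⟨_, hprim'⟩
      (a := Multiplicative.toAdd ((E γ).2 i)) (by
        intro h0
        apply hi
        exact Multiplicative.toAdd.injective h0)
    refine ⟨φ.comp ((Pi.evalMonoidHom (fun i => Multiplicative (ZMod (p i ^ e i))) i).comp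
      ((MonoidHom.snd _ _).comp E.toMonoidHom)), ?_⟩
    intro hone
    apply hφ
    apply Units.ext
    apply toCplx_injective
    rw [Units.val_one, map_one]
    exact hone
  · obtain ⟨k, hk⟩ : ∃ k, (E γ).1 k ≠ 1 := by
      by_contra hcon
      push Not at hcon
      exact h1 (funext hcon)
    refine ⟨(zpowersHom (𝓞 L)ˣ (unitU L hsL)).comp
      ((Pi.evalMonoidHom (fun _ : j => Multiplicative ℤ) k).comp
        ((MonoidHom.fst _ _).comp E.toMonoidHom)), ?_⟩
    apply toCplx_unitU_zpow L hsL (Multiplicative.toAdd ((E γ).1 k))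
    intro h0
    apply hk
    exact Multiplicative.toAdd.injective h0

end Vale.Agent.H1.P002
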