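import Mathlib
import Vale.Agent.H1.P002.Defs

/-!
Monomial matrices and monomial representations (generalised permutation matrices),
described by a permutation action and a cocycle of coefficients.
-/

namespace Vale.Agent.H1.P002

open Matrix

section MonoMat

variable {ι : Type} [DecidableEq ι] {R : Type} [CommRing R]

/-- The monomial matrix with entry `d j` at position `(p j, j)` and zeros elsewhere. -/
def monoMat (p : Equiv.Perm ι) (d : ι → R) : Matrix ι ι R :=
  fun i j => if i = p j then d j else 0

theorem monoMat_apply (p : Equiv.Perm ι) (d : ι → R) (i j : ι) :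
    monoMat p d i j = if i = p j then d j else 0 := rfl

theorem monoMat_map {S : Type} [CommRing S] (σ : R →+* S) (p : Equiv.Perm ι) (d : ι → R) :
    (monoMat p d).map σ = monoMat p (fun j => σ (d j)) := by
  ext i j
  simp only [Matrix.map_apply, monoMat_apply]
  split_ifs <;> simp

variable [Fintype ι]

theorem monoMat_mul (p q : Equiv.Perm ι) (d e : ι → R) :
    monoMat p d * monoMat q e = monoMat (p * q) (fun j => d (q j) * e j) := by
  ext i j
  rw [Matrix.mul_apply, Finset.sum_eq_single (q j)]
  · rw [monoMat_apply, monoMat_apply, monoMat_apply, if_pos rfl]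
    by_cases h : i = p (q j)
    · rw [if_pos h, if_pos (by rw [Equiv.Perm.mul_apply]; exact h)]
    · rw [if_neg h, if_neg (by rw [Equiv.Perm.mul_apply]; exact h), zero_mul]
  · intro k _ hk
    simp [monoMat_apply, hk]
  · intro h
    exact absurd (Finset.mem_univ _) h

theorem monoMat_one : monoMat (1 : Equiv.Perm ι) (fun _ => (1 : R)) = 1 := by
  ext i j
  rw [monoMat_apply, Matrix.one_apply, Equiv.Perm.one_apply]

theorem trace_monoMat (p : Equiv.Perm ι) (d : ι → R) :
    (monoMat p d).trace = ∑ j, if j = p j then d j else 0 := rfl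

theorem det_monoMat (p : Equiv.Perm ι) (d : ι → R) :
    (monoMat p d).det = ((Equiv.Perm.sign p : ℤˣ) : ℤ) * ∏ j, d j := by
  rw [Matrix.det_apply', Finset.sum_eq_single p]
  · congr 1
    refine Finset.prod_congr rfl fun j _ => ?_
    simp [monoMat_apply]
  · intro q _ hq
    obtain ⟨j, hj⟩ : ∃ j, q j ≠ p j := by
      by_contra hcon
      push Not at hcon
      exact hq (Equiv.ext hcon)
    rw [Finset.prod_eq_zero (Finset.mem_univ j), mul_zero]
    simp [monoMat_apply, hj]
  · intro h
    exact absurd (Finset.mem_univ _) h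

end MonoMat

/-- Monomial data: a permutation action `perm` of `Γ` on `ι` and coefficients `coef` forming a
cocycle, so that `γ ↦ monoMat (perm γ) (coef γ)` is multiplicative. -/
structure MonoData (Γ : Type) [Group Γ] (ι : Type) (R : Type) [CommRing R] where
  /-- the permutation action -/
  perm : Γ →* Equiv.Perm ι
  /-- the coefficients -/
  coef : Γ → ι → Rˣ
  coef_mul : ∀ γ γ' j, coef (γ * γ') j = coef γ (perm γ' j) * coef γ' j

namespace MonoData

variable {Γ : Type} [Group Γ] {ι : Type} {R : Type} [CommRing R]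

theorem ext' {D D' : MonoData Γ ι R} (h1 : D.perm = D'.perm) (h2 : D.coef = D'.coef) :
    D = D' := by
  cases D
  cases D'
  simp only at h1 h2
  subst h1
  subst h2
  rfl

theorem coef_one (D : MonoData Γ ι R) (j : ι) : D.coef 1 j = 1 := by
  have h := D.coef_mul 1 1 j
  simp only [mul_one, map_one, Equiv.Perm.one_apply] at h
  have h2 : D.coef 1 j * D.coef 1 j = D.coef 1 j * 1 := by rw [mul_one]; exact h.symm
  exact mul_left_cancel h2

theorem coef_inv (D : MonoData Γ ι R) (γ : Γ) (j : ι) :
    D.coef γ⁻¹ j = (D.coef γ (D.perm γ⁻¹ j))⁻¹ := by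
  have h := D.coef_mul γ γ⁻¹ j
  rw [mul_inv_cancel, coef_one] at h
  exact eq_inv_of_mul_eq_one_right h.symm

variable [Fintype ι] [DecidableEq ι]

/-- The monomial matrix of `γ`. -/
def mat (D : MonoData Γ ι R) (γ : Γ) : Matrix ι ι R :=
  monoMat (D.perm γ) (fun j => ((D.coef γ j : Rˣ) : R))

theorem mat_mul (D : MonoData Γ ι R) (γ γ' : Γ) : D.mat (γ * γ') = D.mat γ * D.mat γ' := by
  unfold mat
  rw [monoMat_mul, map_mul]
  congr 1
  funext j
  rw [D.coef_mul, Units.val_mul]

theorem mat_one (D : MonoData Γ ι R) : D.mat 1 = 1 := by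
  unfold mat
  rw [map_one]
  have : (fun j => ((D.coef 1 j : Rˣ) : R)) = fun _ => 1 := by
    funext j
    rw [coef_one, Units.val_one]
  rw [this, monoMat_one]

/-- The determinant of the monomial matrix of `γ`, as a unit. -/
def detU (D : MonoData Γ ι R) (γ : Γ) : Rˣ :=
  Units.map (Int.castRingHom R : ℤ →* R) (Equiv.Perm.sign (D.perm γ)) * ∏ j, D.coef γ j

theorem det_mat (D : MonoData Γ ι R) (γ : Γ) : (D.mat γ).det = ((D.detU γ : Rˣ) : R) := by
  unfold mat detU
  rw [det_monoMat, Units.val_mul, Units.coe_prod]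
  rfl

theorem trace_mat (D : MonoData Γ ι R) (γ : Γ) :
    (D.mat γ).trace = ∑ j, if j = D.perm γ j then ((D.coef γ j : Rˣ) : R) else 0 := rfl

/-- All the monomial matrices have determinant one. -/
def IsSL (D : MonoData Γ ι R) : Prop := ∀ γ, D.detU γ = 1

/-- The representation into the special linear group given by monomial data of determinant
one. -/
def toRep (D : MonoData Γ ι R) (h : D.IsSL) : Γ →* Matrix.SpecialLinearGroup ι R where
  toFun γ := ⟨D.mat γ, by rw [det_mat, h γ, Units.val_one]⟩
  map_one' := by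
    apply Subtype.ext
    exact D.mat_one
  map_mul' a b := by
    apply Subtype.ext
    exact D.mat_mul a b

theorem toRep_apply (D : MonoData Γ ι R) (h : D.IsSL) (γ : Γ) :
    ((D.toRep h γ : Matrix.SpecialLinearGroup ι R) : Matrix ι ι R) = D.mat γ := rfl

end MonoData

/-- A cocycle for the permutation action `π`, with values in a commutative group. -/
def IsCocycle {Γ : Type} [Group Γ] {ι : Type} {A : Type} [CommGroup A]
    (π : Γ →* Equiv.Perm ι) (e : Γ → ι → A) : Prop :=
  ∀ γ γ' j, e (γ * γ') j = e γ (π γ' j) * e γ' j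

namespace MonoData

variable {Γ : Type} [Group Γ] {ι : Type} {R : Type} [CommRing R]

theorem isCocycle_coef (D : MonoData Γ ι R) : IsCocycle D.perm D.coef := D.coef_mul

/-- Twisting monomial data by a cocycle. -/
def twist (D : MonoData Γ ι R) (e : Γ → ι → Rˣ) (he : IsCocycle D.perm e) : MonoData Γ ι R where
  perm := D.perm
  coef γ j := D.coef γ j * e γ j
  coef_mul γ γ' j := by
    rw [D.coef_mul, he γ γ' j]
    exact mul_mul_mul_comm _ _ _ _

/-- Base change of monomial data along a ring homomorphism. -/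
def map {S : Type} [CommRing S] (D : MonoData Γ ι R) (σ : R →+* S) : MonoData Γ ι S where
  perm := D.perm
  coef γ j := Units.map (σ : R →* S) (D.coef γ j)
  coef_mul γ γ' j := by
    rw [D.coef_mul, map_mul]

variable [Fintype ι] [DecidableEq ι]

theorem detU_twist (D : MonoData Γ ι R) (e : Γ → ι → Rˣ) (he : IsCocycle D.perm e) (γ : Γ) :
    (D.twist e he).detU γ = D.detU γ * ∏ j, e γ j := by
  unfold detU twist
  simp only
  rw [Finset.prod_mul_distrib, mul_assoc]

theorem mat_map {S : Type} [CommRing S] (D : MonoData Γ ι R) (σ : R →+* S) (γ : Γ) :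
    (D.map σ).mat γ = (D.mat γ).map σ := by
  unfold mat
  rw [monoMat_map]
  rfl

theorem detU_map {S : Type} [CommRing S] (D : MonoData Γ ι R) (σ : R →+* S) (γ : Γ) :
    (D.map σ).detU γ = Units.map (σ : R →* S) (D.detU γ) := by
  apply Units.ext
  rw [← det_mat, mat_map, Units.coe_map, ← det_mat]
  exact (RingHom.map_det σ (D.mat γ)).symm

theorem isSL_map {S : Type} [CommRing S] (D : MonoData Γ ι R) (σ : R →+* S) (h : D.IsSL) :
    (D.map σ).IsSL := by
  intro γ
  rw [detU_map, h γ, map_one]

theorem toRep_map {S : Type} [CommRing S] (D : MonoData Γ ι R) (σ : R →+* S) (h : D.IsSL) :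
    (Matrix.SpecialLinearGroup.map σ).comp (D.toRep h) = (D.map σ).toRep (D.isSL_map σ h) := by
  ext γ i j
  show σ (D.mat γ i j) = (D.map σ).mat γ i j
  rw [mat_map]
  rfl

end MonoData

end Vale.Agent.H1.P002
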