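import Mathlib
import Vale.Agent.H1.P002.Mono

/-!
The universal commutative group receiving a cocycle for a permutation action, with trivial
product over the index set and trivial values at a prescribed set of pairs.
-/

namespace Vale.Agent.H1.P002

section Univ

variable {Γ : Type} [Group Γ] {ι : Type} [Fintype ι]

/-- The free commutative group on the symbols `[γ, j]`. -/
abbrev FreeCoc (Γ ι : Type) : Type := Abelianization (FreeGroup (Γ × ι))

/-- The symbol `[γ, j]`. -/
def symb (γ : Γ) (j : ι) : FreeCoc Γ ι := Abelianization.of (FreeGroup.of (γ, j))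

/-- The relations: the cocycle identity, triviality of the product over `ι`, and triviality at
the pairs in `Bd`. -/
def cocRels (π : Γ →* Equiv.Perm ι) (Bd : Set (Γ × ι)) : Set (FreeCoc Γ ι) :=
  {x | ∃ γ γ' j, x = symb (γ * γ') j * (symb γ (π γ' j) * symb γ' j)⁻¹} ∪
    {x | ∃ γ, x = ∏ j, symb γ j} ∪ {x | ∃ b ∈ Bd, x = symb b.1 b.2}

/-- The universal commutative group for cocycles of the permutation action `π` with trivial
product and trivial values on `Bd`. -/
abbrev CocMod (π : Γ →* Equiv.Perm ι) (Bd : Set (Γ × ι)) : Type :=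
  FreeCoc Γ ι ⧸ Subgroup.closure (cocRels π Bd)

/-- The universal cocycle. -/
def gen (π : Γ →* Equiv.Perm ι) (Bd : Set (Γ × ι)) (γ : Γ) (j : ι) : CocMod π Bd :=
  QuotientGroup.mk (symb γ j)

variable (π : Γ →* Equiv.Perm ι) (Bd : Set (Γ × ι))

theorem gen_isCocycle : IsCocycle π (gen π Bd) := by
  intro γ γ' j
  have hmem : symb (γ * γ') j * (symb γ (π γ' j) * symb γ' j)⁻¹ ∈
      Subgroup.closure (cocRels π Bd) :=
    Subgroup.subset_closure (Or.inl (Or.inl ⟨γ, γ', j, rfl⟩))
  have h1 : (QuotientGroup.mk (symb (γ * γ') j * (symb γ (π γ' j) * symb γ' j)⁻¹) :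
      CocMod π Bd) = 1 := (QuotientGroup.eq_one_iff _).mpr hmem
  rw [QuotientGroup.mk_mul, QuotientGroup.mk_inv, QuotientGroup.mk_mul] at h1
  exact mul_inv_eq_one.mp h1

theorem gen_prod (γ : Γ) : ∏ j, gen π Bd γ j = 1 := by
  have hmem : ∏ j, symb γ j ∈ Subgroup.closure (cocRels π Bd) :=
    Subgroup.subset_closure (Or.inl (Or.inr ⟨γ, rfl⟩))
  have h1 : (QuotientGroup.mk (∏ j, symb γ j) : CocMod π Bd) = 1 :=
    (QuotientGroup.eq_one_iff _).mpr hmem
  rw [← h1]
  exact (map_prod (QuotientGroup.mk' (Subgroup.closure (cocRels π Bd))) _ _).symm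

theorem gen_bd (b : Γ × ι) (hb : b ∈ Bd) : gen π Bd b.1 b.2 = 1 := by
  have hmem : symb b.1 b.2 ∈ Subgroup.closure (cocRels π Bd) :=
    Subgroup.subset_closure (Or.inr ⟨b, hb, rfl⟩)
  exact (QuotientGroup.eq_one_iff _).mpr hmem

/-- The homomorphism out of the universal group attached to a cocycle. -/
def cocLift {A : Type} [CommGroup A] (e : Γ → ι → A) (he : IsCocycle π e)
    (hp : ∀ γ, ∏ j, e γ j = 1) (hb : ∀ b ∈ Bd, e b.1 b.2 = 1) : CocMod π Bd →* A :=
  QuotientGroup.lift _ (Abelianization.lift (FreeGroup.lift (fun p : Γ × ι => e p.1 p.2))) (by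
    rw [Subgroup.closure_le]
    intro x hx
    rw [SetLike.mem_coe, MonoidHom.mem_ker]
    rcases hx with (⟨γ, γ', j, rfl⟩ | ⟨γ, rfl⟩) | ⟨b, hb', rfl⟩
    · simp only [symb, map_mul, map_inv, Abelianization.lift_apply_of, FreeGroup.lift_apply_of]
      rw [he γ γ' j, mul_inv_cancel]
    · simp only [symb, map_prod, Abelianization.lift_apply_of, FreeGroup.lift_apply_of]
      exact hp γ
    · simp only [symb, Abelianization.lift_apply_of, FreeGroup.lift_apply_of]
      exact hb b hb')

theorem cocLift_gen {A : Type} [CommGroup A] (e : Γ → ι → A) (he : IsCocycle π e)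
    (hp : ∀ γ, ∏ j, e γ j = 1) (hb : ∀ b ∈ Bd, e b.1 b.2 = 1) (γ : Γ) (j : ι) :
    cocLift π Bd e he hp hb (gen π Bd γ j) = e γ j := by
  unfold cocLift gen symb
  rw [QuotientGroup.lift_mk, Abelianization.lift_apply_of, FreeGroup.lift_apply_of]

theorem gen_one (j : ι) : gen π Bd 1 j = 1 := by
  have h := gen_isCocycle π Bd 1 1 j
  simp only [mul_one, map_one, Equiv.Perm.one_apply] at h
  have h2 : gen π Bd 1 j * gen π Bd 1 j = gen π Bd 1 j * 1 := by rw [mul_one]; exact h.symm
  exact mul_left_cancel h2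

theorem gen_inv (γ : Γ) (j : ι) : gen π Bd γ⁻¹ j = (gen π Bd γ (π γ⁻¹ j))⁻¹ := by
  have h := gen_isCocycle π Bd γ γ⁻¹ j
  rw [mul_inv_cancel, gen_one] at h
  exact eq_inv_of_mul_eq_one_right h.symm

theorem cocMod_fg [Group.FG Γ] : Group.FG (CocMod π Bd) := by
  obtain ⟨S, hS, hSfin⟩ := Group.fg_iff.mp (inferInstance : Group.FG Γ)
  rw [Group.fg_iff]
  refine ⟨(fun p : Γ × ι => gen π Bd p.1 p.2) '' (S ×ˢ (Set.univ : Set ι)), ?_,
    (hSfin.prod Set.finite_univ).image _⟩
  set H : Subgroup (CocMod π Bd) :=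
    Subgroup.closure ((fun p : Γ × ι => gen π Bd p.1 p.2) '' (S ×ˢ (Set.univ : Set ι))) with hH
  have hgen : ∀ γ : Γ, ∀ j : ι, gen π Bd γ j ∈ H := by
    intro γ
    have hγ : γ ∈ Subgroup.closure S := by rw [hS]; trivial
    induction hγ using Subgroup.closure_induction with
    | mem x hx =>
      intro j
      exact Subgroup.subset_closure ⟨(x, j), ⟨hx, Set.mem_univ _⟩, rfl⟩
    | one =>
      intro j
      rw [gen_one]
      exact H.one_mem
    | mul x y _ _ ihx ihy =>
      intro j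
      rw [gen_isCocycle π Bd x y j]
      exact H.mul_mem (ihx _) (ihy _)
    | inv x _ ihx =>
      intro j
      rw [gen_inv]
      exact H.inv_mem (ihx _)
  rw [eq_top_iff]
  rintro x -
  obtain ⟨y, rfl⟩ := QuotientGroup.mk_surjective x
  obtain ⟨z, rfl⟩ := QuotientGroup.mk_surjective y
  have hz : z ∈ Subgroup.closure (Set.range (FreeGroup.of : Γ × ι → FreeGroup (Γ × ι))) := by
    rw [FreeGroup.closure_range_of]; trivial
  induction hz using Subgroup.closure_induction with
  | mem w hw =>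
    obtain ⟨p, rfl⟩ := hw
    exact hgen p.1 p.2
  | one => exact H.one_mem
  | mul a b _ _ iha ihb => exact H.mul_mem iha ihb
  | inv a _ iha => exact H.inv_mem iha

end Univ

end Vale.Agent.H1.P002
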