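import Mathlib
import Vale.Agent.H1.P002.Univ

/-!
The density argument for twists of monomial representations: Artin's independence of characters
on the group of integral characters of the universal cocycle group.
-/

namespace Vale.Agent.H1.P002

section AD

variable {M : Type} [CommGroup M] {R : Type} [CommRing R] (σ : R →+* ℂ)

/-- The complex-valued character attached to an `Rˣ`-valued character. -/
def chiC (l : M →* Rˣ) : M →* ℂ := (Units.coeHom ℂ).comp ((Units.map (σ : R →* ℂ)).comp l)

theorem chiC_apply (l : M →* Rˣ) (m : M) : chiC σ l m = σ (l m : R) := rfl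

/-- If `Rˣ`-valued characters separate the points of `M` (after `σ`), then an element of the
group algebra of `M` that is killed by all of them is zero. -/
theorem ad_lemma (hsep : ∀ m : M, m ≠ 1 → ∃ l : M →* Rˣ, σ (l m : R) ≠ 1)
    (c : MonoidAlgebra ℂ M)
    (h : ∀ l : M →* Rˣ, MonoidAlgebra.lift ℂ ℂ M (chiC σ l) c = 0) : c = 0 := by
  classical
  let θ : M → ((M →* Rˣ) →* ℂ) := fun m =>
    { toFun := fun l => σ (l m : R)
      map_one' := by simp
      map_mul' := by intro a b; simp }
  have hθ : Function.Injective θ := by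
    intro m m' hmm
    by_contra hne
    have hd : m / m' ≠ 1 := fun h => hne (div_eq_one.mp h)
    obtain ⟨l, hl⟩ := hsep _ hd
    apply hl
    have h1 : θ m l = θ m' l := by rw [hmm]
    have h1' : σ (l m : R) = σ (l m' : R) := h1
    have hu : Units.map (σ : R →* ℂ) (l m) = Units.map (σ : R →* ℂ) (l m') := Units.ext h1'
    have h2 : Units.map (σ : R →* ℂ) (l (m / m')) = 1 := by
      rw [map_div, map_div, hu, div_self']
    exact congrArg Units.val h2
  have h0 : Finsupp.linearCombination ℂ
      (fun ψ : (M →* Rˣ) →* ℂ => (ψ : (M →* Rˣ) → ℂ)) (Finsupp.mapDomain θ c.coeff) = 0 := by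
    rw [Finsupp.linearCombination_mapDomain]
    ext l
    have h1 := h l
    rw [MonoidAlgebra.lift_apply] at h1
    rw [Finsupp.linearCombination_apply, Finsupp.sum, Finset.sum_apply]
    rw [Finsupp.sum] at h1
    simpa [θ, chiC] using h1
  have hli := linearIndependent_monoidHom (M →* Rˣ) ℂ
  have hmd : Finsupp.mapDomain θ c.coeff = 0 := by
    apply hli
    rw [h0]
    simp
  have hc : c.coeff = 0 := by
    apply Finsupp.mapDomain_injective hθ
    rw [hmd, Finsupp.mapDomain_zero]
  apply MonoidAlgebra.coeff_injective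
  rw [hc]
  rfl

end AD

section Twist

variable {Γ : Type} [Group Γ] {ι : Type} {M : Type} [CommGroup M] {R : Type} [CommRing R]

theorem isCocycle_comp {A B : Type} [CommGroup A] [CommGroup B] (π : Γ →* Equiv.Perm ι)
    (g : Γ → ι → A) (hg : IsCocycle π g) (φ : A →* B) :
    IsCocycle π (fun γ j => φ (g γ j)) := by
  intro γ γ' j
  show φ (g (γ * γ') j) = φ (g γ (π γ' j)) * φ (g γ' j)
  rw [hg γ γ' j, map_mul]

/-- Twisting monomial data by a character of a group receiving a cocycle. -/
def MonoData.twistM (D : MonoData Γ ι R) (g : Γ → ι → M) (hg : IsCocycle D.perm g)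
    (l : M →* Rˣ) : MonoData Γ ι R :=
  D.twist (fun γ j => l (g γ j)) (isCocycle_comp D.perm g hg l)

theorem MonoData.twistM_coef (D : MonoData Γ ι R) (g : Γ → ι → M) (hg : IsCocycle D.perm g)
    (l : M →* Rˣ) (γ : Γ) (j : ι) : (D.twistM g hg l).coef γ j = D.coef γ j * l (g γ j) := rfl

theorem MonoData.twistM_perm (D : MonoData Γ ι R) (g : Γ → ι → M) (hg : IsCocycle D.perm g)
    (l : M →* Rˣ) : (D.twistM g hg l).perm = D.perm := rfl

variable [Fintype ι] [DecidableEq ι]

theorem MonoData.isSL_twistM (D : MonoData Γ ι R) (hSL : D.IsSL) (g : Γ → ι → M)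
    (hg : IsCocycle D.perm g) (hprod : ∀ γ, ∏ j, g γ j = 1) (l : M →* Rˣ) :
    (D.twistM g hg l).IsSL := by
  intro γ
  unfold MonoData.twistM
  rw [MonoData.detU_twist, hSL γ, one_mul, ← map_prod, hprod γ, map_one]

end Twist

section K1

variable {Γ : Type} [Group Γ] {r : ℕ} {M : Type} [CommGroup M]

/-- A trace polynomial takes the same value on two representations with the same traces. -/
theorem traceAlgebra_congr' {ρ₁ ρ₂ : Γ →* Matrix.SpecialLinearGroup (Fin r) ℂ}
    (h : ∀ γ, traceFun Γ r γ ρ₁ = traceFun Γ r γ ρ₂)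
    {f : (Γ →* Matrix.SpecialLinearGroup (Fin r) ℂ) → ℂ} (hf : f ∈ traceAlgebra Γ r) :
    f ρ₁ = f ρ₂ := by
  unfold traceAlgebra at hf
  induction hf using Algebra.adjoin_induction with
  | mem x hx =>
    obtain ⟨γ, rfl⟩ := hx
    exact h γ
  | algebraMap c => simp
  | add x y _ _ hx hy => simp [hx, hy]
  | mul x y _ _ hx hy => simp [hx, hy]

/-- Along the twists of fixed monomial data by characters of `M`, a trace polynomial is given by
an element of the group algebra of `M`. -/
theorem exists_coeffs_mono (D : MonoData Γ (Fin r) ℂ) (g : Γ → Fin r → M)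
    (hg : IsCocycle D.perm g)
    {f : (Γ →* Matrix.SpecialLinearGroup (Fin r) ℂ) → ℂ} (hf : f ∈ traceAlgebra Γ r) :
    ∃ c : MonoidAlgebra ℂ M, ∀ (φ : M →* ℂˣ) (h : (D.twistM g hg φ).IsSL),
      f ((D.twistM g hg φ).toRep h) =
        MonoidAlgebra.lift ℂ ℂ M ((Units.coeHom ℂ).comp φ) c := by
  unfold traceAlgebra at hf
  induction hf using Algebra.adjoin_induction with
  | mem x hx =>
    obtain ⟨γ, rfl⟩ := hx
    refine ⟨∑ j, MonoidAlgebra.single (g γ j)
      (if j = D.perm γ j then ((D.coef γ j : ℂˣ) : ℂ) else 0), fun φ h => ?_⟩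
    show Matrix.trace ((D.twistM g hg φ).mat γ) = _
    rw [MonoData.trace_mat, map_sum]
    refine Finset.sum_congr rfl fun j _ => ?_
    rw [MonoidAlgebra.lift_single, MonoData.twistM_perm, MonoData.twistM_coef]
    by_cases hj : j = D.perm γ j
    · rw [if_pos hj, if_pos hj, Units.val_mul]
      rfl
    · rw [if_neg hj, if_neg hj, zero_smul]
  | algebraMap c => exact ⟨algebraMap ℂ _ c, fun φ h => by simp⟩
  | add x y _ _ hx hy =>
    obtain ⟨c1, h1⟩ := hx
    obtain ⟨c2, h2⟩ := hy
    exact ⟨c1 + c2, fun φ h => by simp [h1 φ h, h2 φ h]⟩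
  | mul x y _ _ hx hy =>
    obtain ⟨c1, h1⟩ := hx
    obtain ⟨c2, h2⟩ := hy
    exact ⟨c1 * c2, fun φ h => by simp [h1 φ h, h2 φ h]⟩

/-- Core density statement for monomial representations: if a trace polynomial vanishes at all
twists of the integral monomial data `D₀` by `Rˣ`-valued characters of `M`, and these characters
separate the points of `M`, then it vanishes at all twists of `D₀` by complex characters
of `M`. -/
theorem core_mono {R : Type} [CommRing R] (σ : R →+* ℂ)
    (hsep : ∀ m : M, m ≠ 1 → ∃ l : M →* Rˣ, σ (l m : R) ≠ 1)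
    (D₀ : MonoData Γ (Fin r) R) (hSL : D₀.IsSL)
    (g : Γ → Fin r → M) (hg : IsCocycle D₀.perm g) (hprod : ∀ γ, ∏ j, g γ j = 1)
    {f : (Γ →* Matrix.SpecialLinearGroup (Fin r) ℂ) → ℂ} (hf : f ∈ traceAlgebra Γ r)
    (hint : ∀ l : M →* Rˣ, f ((Matrix.SpecialLinearGroup.map σ).comp
      ((D₀.twistM g hg l).toRep (D₀.isSL_twistM hSL g hg hprod l))) = 0)
    (φ : M →* ℂˣ) :
    f (((D₀.map σ).twistM g hg φ).toRep
      ((D₀.map σ).isSL_twistM (D₀.isSL_map σ hSL) g hg hprod φ)) = 0 := by
  obtain ⟨c, hc⟩ := exists_coeffs_mono (D₀.map σ) g hg hf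
  have hc0 : c = 0 := by
    apply ad_lemma σ hsep
    intro l
    have h1 := hc ((Units.map (σ : R →* ℂ)).comp l)
      ((D₀.map σ).isSL_twistM (D₀.isSL_map σ hSL) g hg hprod _)
    have h2 : (D₀.map σ).twistM g hg ((Units.map (σ : R →* ℂ)).comp l) =
        (D₀.twistM g hg l).map σ := by
      apply MonoData.ext'
      · rfl
      · funext γ j
        show Units.map (σ : R →* ℂ) (D₀.coef γ j) * (Units.map (σ : R →* ℂ)) (l (g γ j)) =
          Units.map (σ : R →* ℂ) (D₀.coef γ j * l (g γ j))
        rw [map_mul]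
    have h3 := hint l
    rw [MonoData.toRep_map] at h3
    have h4 : f (((D₀.map σ).twistM g hg ((Units.map (σ : R →* ℂ)).comp l)).toRep
        ((D₀.map σ).isSL_twistM (D₀.isSL_map σ hSL) g hg hprod _)) = 0 := by
      rw [← h3]
      congr 1
      congr 1
    rw [h4] at h1
    exact h1.symm
  rw [hc φ, hc0, map_zero]

end K1

end Vale.Agent.H1.P002
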