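import Mathlib
import Vale.Agent.H1.P002.MonoCore
import Vale.Agent.H1.P002.Field

/-!
Base points: separation of points by integral characters, torsion base points for monomial data,
integral lifts of root-of-unity valued monomial data, and the monomial data of a monomial matrix
representation.
-/

namespace Vale.Agent.H1.P002

open NumberField

/-- Integral characters separate the points of a finitely generated commutative group, over the
ring of integers of any subfield of `ℂ` containing `√2` and a primitive `N`-th root of unity,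
where `N` depends only on the group. -/
theorem exists_sep (M : Type) [CommGroup M] [Group.FG M] :
    ∃ N : ℕ, N ≠ 0 ∧ ∀ L : IntermediateField ℚ ℂ, ((Real.sqrt 2 : ℝ) : ℂ) ∈ L →
      ∀ ζ : ℂ, ζ ∈ L → IsPrimitiveRoot ζ N →
        ∀ m : M, m ≠ 1 → ∃ l : M →* (𝓞 L)ˣ, toCplx L (l m : 𝓞 L) ≠ 1 := by
  classical
  obtain ⟨ι, j, _, _, p, hp, e, ⟨E⟩⟩ := CommGroup.equiv_free_prod_prod_multiplicative_zmod M
  let N : ℕ := ∏ i, p i ^ e i
  have hN : N ≠ 0 := Finset.prod_ne_zero_iff.mpr fun i _ => pow_ne_zero _ (hp i).ne_zero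
  refine ⟨N, hN, fun L hsL ζ hζL hζ γ hγ => ?_⟩
  have hE : E γ ≠ 1 := fun h => hγ ((MulEquiv.map_eq_one_iff E).mp h)
  by_cases h1 : (E γ).1 = 1
  · have h2 : (E γ).2 ≠ 1 := fun h => hE (Prod.ext h1 h)
    obtain ⟨i, hi⟩ : ∃ i, (E γ).2 i ≠ 1 := by
      by_contra hcon
      push Not at hcon
      exact h2 (funext hcon)
    have hq : p i ^ e i ≠ 0 := pow_ne_zero _ (hp i).ne_zero
    have : NeZero (p i ^ e i) := ⟨hq⟩
    have hdvd : p i ^ e i ∣ N := Finset.dvd_prod_of_mem _ (Finset.mem_univ i)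
    have hprim : IsPrimitiveRoot (ζ ^ (N / (p i ^ e i))) (p i ^ e i) :=
      IsPrimitiveRoot.pow (Nat.pos_of_ne_zero hN) hζ (Nat.div_mul_cancel hdvd).symm
    have hprim' : IsPrimitiveRoot (mkInt L (ζ ^ (N / (p i ^ e i))) (pow_mem hζL _)
        (hprim.isIntegral (Nat.pos_of_ne_zero hq))) (p i ^ e i) := by
      apply IsPrimitiveRoot.of_map_of_injective (f := toCplx L) _ (toCplx_injective L)
      rw [toCplx_mkInt]
      exact hprim
    obtain ⟨φ, hφ⟩ := ZMod.exists_monoidHom_apply_ne_one ⟨_, hprim'⟩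
      (a := Multiplicative.toAdd ((E γ).2 i)) (by
        intro h0
        apply hi
        exact Multiplicative.toAdd.injective h0)
    refine ⟨φ.comp ((Pi.evalMonoidHom (fun i => Multiplicative (ZMod (p i ^ e i))) i).comp
      ((MonoidHom.snd _ _).comp E.toMonoidHom)), ?_⟩
    intro hone
    apply hφ
    apply Units.ext
    apply toCplx_injective
    rw [Units.val_one, map_one]
    exact hone
  · obtain ⟨k, hk⟩ : ∃ k, (E γ).1 k ≠ 1 := by
      by_contra hcon
      push Not at hcon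
      exact h1 (funext hcon)
    refine ⟨(zpowersHom (𝓞 L)ˣ (unitU L hsL)).comp
      ((Pi.evalMonoidHom (fun _ : j => Multiplicative ℤ) k).comp
        ((MonoidHom.fst _ _).comp E.toMonoidHom)), ?_⟩
    apply toCplx_unitU_zpow L hsL (Multiplicative.toAdd ((E γ).1 k))
    intro h0
    apply hk
    exact Multiplicative.toAdd.injective h0

section Torsion

variable {Γ : Type} [Group Γ] {ι : Type} [Fintype ι]

/-- Any complex monomial data over a finitely generated group can be replaced by monomial data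
with the same permutation action whose coefficients are roots of unity of bounded order,
without changing the coefficients (or the products of coefficients) that already have finite
order. -/
theorem exists_torsion_data [Group.FG Γ] (D : MonoData Γ ι ℂ) :
    ∃ (D' : MonoData Γ ι ℂ) (N : ℕ), N ≠ 0 ∧ D'.perm = D.perm ∧
      (∀ γ j, D'.coef γ j ^ N = 1) ∧
      (∀ γ j, IsOfFinOrder (D.coef γ j) → D'.coef γ j = D.coef γ j) ∧
      (∀ γ, IsOfFinOrder (∏ j, D.coef γ j) → ∏ j, D'.coef γ j = ∏ j, D.coef γ j) := by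
  classical
  obtain ⟨S, hS, hSfin⟩ := Group.fg_iff.mp (inferInstance : Group.FG Γ)
  have hTfin : ((fun p : Γ × ι => D.coef p.1 p.2) '' (S ×ˢ (Set.univ : Set ι))).Finite :=
    (hSfin.prod Set.finite_univ).image _
  set Λ : Subgroup ℂˣ :=
    Subgroup.closure ((fun p : Γ × ι => D.coef p.1 p.2) '' (S ×ˢ (Set.univ : Set ι))) with hΛ
  have hmem : ∀ γ : Γ, ∀ j : ι, D.coef γ j ∈ Λ := by
    intro γ
    have hγ : γ ∈ Subgroup.closure S := by rw [hS]; trivial
    induction hγ using Subgroup.closure_induction with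
    | mem x hx =>
      intro j
      exact Subgroup.subset_closure ⟨(x, j), ⟨hx, Set.mem_univ _⟩, rfl⟩
    | one =>
      intro j
      rw [D.coef_one]
      exact Λ.one_mem
    | mul x y _ _ ihx ihy =>
      intro j
      rw [D.coef_mul x y j]
      exact Λ.mul_mem (ihx _) (ihy _)
    | inv x _ ihx =>
      intro j
      rw [D.coef_inv]
      exact Λ.inv_mem (ihx _)
  have hfg : Group.FG Λ := by
    rw [Group.fg_iff_subgroup_fg]
    exact ⟨hTfin.toFinset, by rw [Set.Finite.coe_toFinset]⟩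
  obtain ⟨ι', j', _, _, p, hp, e, ⟨E⟩⟩ := CommGroup.equiv_free_prod_prod_multiplicative_zmod Λ
  let N : ℕ := ∏ i, p i ^ e i
  have hN : N ≠ 0 := Finset.prod_ne_zero_iff.mpr fun i _ => pow_ne_zero _ (hp i).ne_zero
  let q : Λ →* Λ := E.symm.toMonoidHom.comp
    ((MonoidHom.inr (j' → Multiplicative ℤ) ((i : ι') → Multiplicative (ZMod (p i ^ e i)))).comp
      ((MonoidHom.snd (j' → Multiplicative ℤ)
        ((i : ι') → Multiplicative (ZMod (p i ^ e i)))).comp E.toMonoidHom))
  have hEq : ∀ x : Λ, E (q x) = (1, (E x).2) := by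
    intro x
    show E (E.symm (1, (E x).2)) = _
    rw [MulEquiv.apply_symm_apply]
  have htor : ∀ t : (i : ι') → Multiplicative (ZMod (p i ^ e i)), t ^ N = 1 := by
    intro t
    funext i
    show (t i) ^ N = 1
    apply Multiplicative.toAdd.injective
    rw [toAdd_pow, toAdd_one, nsmul_eq_mul]
    have hdvd : p i ^ e i ∣ N := Finset.dvd_prod_of_mem _ (Finset.mem_univ i)
    rw [(ZMod.natCast_eq_zero_iff N (p i ^ e i)).mpr hdvd, zero_mul]
  have hqN : ∀ x : Λ, q x ^ N = 1 := by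
    intro x
    apply E.injective
    rw [map_pow, hEq, map_one]
    apply Prod.ext
    · simp
    · exact htor _
  have hqfix : ∀ x : Λ, IsOfFinOrder x → q x = x := by
    intro x hx
    obtain ⟨n, hn, hxn⟩ := isOfFinOrder_iff_pow_eq_one.mp hx
    have h1 : (E x).1 = 1 := by
      have h2 : (E x) ^ n = 1 := by rw [← map_pow, hxn, map_one]
      have h3 : (E x).1 ^ n = 1 := congrArg Prod.fst h2
      funext a
      have h4 : ((E x).1 a) ^ n = 1 := congrFun h3 a
      apply Multiplicative.toAdd.injective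
      have h5 : n • Multiplicative.toAdd ((E x).1 a) = 0 := by
        rw [← toAdd_pow, h4, toAdd_one]
      rcases smul_eq_zero.mp h5 with h6 | h6
      · omega
      · exact h6
    apply E.injective
    rw [hEq]
    exact Prod.ext h1.symm rfl
  have hcoe : ∀ x : Λ, IsOfFinOrder (x : ℂˣ) → IsOfFinOrder x := by
    intro x hx
    obtain ⟨n, hn, h⟩ := isOfFinOrder_iff_pow_eq_one.mp hx
    exact isOfFinOrder_iff_pow_eq_one.mpr
      ⟨n, hn, Subtype.ext (by rw [Subgroup.coe_pow]; exact h)⟩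
  refine ⟨{ perm := D.perm
            coef := fun γ j => ((q ⟨D.coef γ j, hmem γ j⟩ : Λ) : ℂˣ)
            coef_mul := ?_ }, N, hN, rfl, ?_, ?_, ?_⟩
  · intro γ γ' j
    have h1 : (⟨D.coef (γ * γ') j, hmem _ _⟩ : Λ) =
        ⟨D.coef γ (D.perm γ' j), hmem _ _⟩ * ⟨D.coef γ' j, hmem _ _⟩ :=
      Subtype.ext (D.coef_mul γ γ' j)
    rw [h1, map_mul]
    rfl
  · intro γ j
    show ((q ⟨D.coef γ j, hmem γ j⟩ : Λ) : ℂˣ) ^ N = 1
    rw [← Subgroup.coe_pow, hqN]
    rfl
  · intro γ j hfin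
    show ((q ⟨D.coef γ j, hmem γ j⟩ : Λ) : ℂˣ) = D.coef γ j
    rw [hqfix]
    exact hcoe _ hfin
  · intro γ hfin
    show ∏ j, ((q ⟨D.coef γ j, hmem γ j⟩ : Λ) : ℂˣ) = ∏ j, D.coef γ j
    have h1 : ∏ j, ((q ⟨D.coef γ j, hmem γ j⟩ : Λ) : ℂˣ) =
        ((q (∏ j, (⟨D.coef γ j, hmem γ j⟩ : Λ)) : Λ) : ℂˣ) := by
      rw [map_prod, Subgroup.val_finsetProd]
    have h2 : ((∏ j, (⟨D.coef γ j, hmem γ j⟩ : Λ) : Λ) : ℂˣ) = ∏ j, D.coef γ j := by
      rw [Subgroup.val_finsetProd]
    rw [h1, hqfix, h2]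
    apply hcoe
    rw [h2]
    exact hfin

end Torsion

section Lift

variable {Γ : Type} [Group Γ] {ι : Type}

/-- Root-of-unity valued monomial data lifts to the ring of integers of any subfield of `ℂ`
containing the relevant roots of unity. -/
theorem exists_int_lift (D' : MonoData Γ ι ℂ) (N : ℕ) (hN : N ≠ 0)
    (hpow : ∀ γ j, D'.coef γ j ^ N = 1) (L : IntermediateField ℚ ℂ) (ζ : ℂ) (hζL : ζ ∈ L)
    (hζ : IsPrimitiveRoot ζ N) :
    ∃ D₀ : MonoData Γ ι (𝓞 L), D₀.perm = D'.perm ∧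
      ∀ γ j, toCplx L ((D₀.coef γ j : (𝓞 L)ˣ) : 𝓞 L) = ((D'.coef γ j : ℂˣ) : ℂ) := by
  haveI : NeZero N := ⟨hN⟩
  have hL : ∀ v : ℂˣ, v ^ N = 1 → (v : ℂ) ∈ L := by
    intro v hv
    have hv' : (v : ℂ) ^ N = 1 := by
      rw [← Units.val_pow_eq_pow_val, hv, Units.val_one]
    obtain ⟨i, _, hi⟩ := hζ.eq_pow_of_pow_eq_one hv'
    rw [← hi]
    exact pow_mem hζL i
  have hI : ∀ v : ℂˣ, v ^ N = 1 → IsIntegral ℤ (v : ℂ) := by
    intro v hv
    have hv' : (v : ℂ) ^ N = 1 := by
      rw [← Units.val_pow_eq_pow_val, hv, Units.val_one]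
    refine ⟨Polynomial.X ^ N - Polynomial.C 1, Polynomial.monic_X_pow_sub_C 1 hN, ?_⟩
    simp [hv']
  have hinv : ∀ v : ℂˣ, v ^ N = 1 → v⁻¹ ^ N = 1 := by
    intro v hv
    rw [inv_pow, hv, inv_one]
  let u : Γ → ι → (𝓞 L)ˣ := fun γ j =>
    Units.mkOfMulEqOne
      (mkInt L ((D'.coef γ j : ℂˣ) : ℂ) (hL _ (hpow γ j)) (hI _ (hpow γ j)))
      (mkInt L (((D'.coef γ j)⁻¹ : ℂˣ) : ℂ) (hL _ (hinv _ (hpow γ j)))
        (hI _ (hinv _ (hpow γ j))))
      (by
        apply toCplx_injective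
        rw [map_mul, toCplx_mkInt, toCplx_mkInt, map_one, ← Units.val_mul, mul_inv_cancel,
          Units.val_one])
  have hu : ∀ γ j, toCplx L ((u γ j : (𝓞 L)ˣ) : 𝓞 L) = ((D'.coef γ j : ℂˣ) : ℂ) :=
    fun γ j => rfl
  refine ⟨{ perm := D'.perm, coef := u, coef_mul := ?_ }, rfl, hu⟩
  intro γ γ' j
  apply Units.ext
  apply toCplx_injective
  rw [Units.val_mul, map_mul, hu, hu, hu, D'.coef_mul, Units.val_mul]

end Lift

section Extract

variable {Γ : Type} [Group Γ] {ι : Type} [Fintype ι] [DecidableEq ι] {K : Type} [Field K]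

/-- A multiplicative family of matrices each of whose columns has at most one nonzero entry is
given by monomial data. -/
theorem exists_monoData_of_cols (ρ' : Γ →* Matrix ι ι K)
    (hmono : ∀ γ j, ∃ i, ∀ i', i' ≠ i → ρ' γ i' j = 0) :
    ∃ D : MonoData Γ ι K, ∀ γ, D.mat γ = ρ' γ := by
  choose p hp using hmono
  have hinv : ∀ γ, ρ' γ⁻¹ * ρ' γ = 1 := by
    intro γ
    rw [← map_mul, inv_mul_cancel, map_one]
  have hne : ∀ γ j, ρ' γ (p γ j) j ≠ 0 := by
    intro γ j h0
    have hcol : ∀ i, ρ' γ i j = 0 := by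
      intro i
      by_cases hi : i = p γ j
      · rw [hi]; exact h0
      · exact hp γ j i hi
    have h1 : (ρ' γ⁻¹ * ρ' γ) j j = 1 := by rw [hinv]; simp
    rw [Matrix.mul_apply] at h1
    simp [hcol] at h1
  have hentry : ∀ γ γ' i j, ρ' (γ * γ') i j = ρ' γ i (p γ' j) * ρ' γ' (p γ' j) j := by
    intro γ γ' i j
    rw [map_mul, Matrix.mul_apply, Finset.sum_eq_single (p γ' j)]
    · intro k _ hk
      rw [hp γ' j k hk, mul_zero]
    · intro h
      exact absurd (Finset.mem_univ _) h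
  have hpmul : ∀ γ γ' j, p (γ * γ') j = p γ (p γ' j) := by
    intro γ γ' j
    by_contra hcon
    have h1 := hp (γ * γ') j (p γ (p γ' j)) (fun h => hcon h.symm)
    rw [hentry] at h1
    rcases mul_eq_zero.mp h1 with h2 | h2
    · exact hne _ _ h2
    · exact hne _ _ h2
  have hp1 : ∀ j, p 1 j = j := by
    intro j
    by_contra hcon
    have h1 := hp 1 j j (fun h => hcon h.symm)
    rw [map_one, Matrix.one_apply_eq] at h1
    exact one_ne_zero h1
  let permOf : Γ → Equiv.Perm ι := fun γ =>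
    { toFun := p γ
      invFun := p γ⁻¹
      left_inv := fun j => by rw [← hpmul, inv_mul_cancel, hp1]
      right_inv := fun j => by rw [← hpmul, mul_inv_cancel, hp1] }
  let π : Γ →* Equiv.Perm ι :=
    { toFun := permOf
      map_one' := by
        apply Equiv.ext
        intro j
        exact hp1 j
      map_mul' := by
        intro a b
        apply Equiv.ext
        intro j
        exact hpmul a b j }
  refine ⟨{ perm := π
            coef := fun γ j => Units.mk0 (ρ' γ (p γ j) j) (hne γ j)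
            coef_mul := ?_ }, ?_⟩
  · intro γ γ' j
    apply Units.ext
    show ρ' (γ * γ') (p (γ * γ') j) j = ρ' γ (p γ (p γ' j)) (p γ' j) * ρ' γ' (p γ' j) j
    rw [hentry, hpmul]
  · intro γ
    ext i j
    show (if i = p γ j then ρ' γ (p γ j) j else 0) = ρ' γ i j
    by_cases hi : i = p γ j
    · rw [if_pos hi, hi]
    · rw [if_neg hi, hp γ j i hi]

/-- A representation into `SL` by matrices each of whose columns has at most one nonzero entry
is the representation of monomial data. -/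
theorem exists_monoData_of_rep (ρ : Γ →* Matrix.SpecialLinearGroup ι K)
    (hmono : ∀ γ j, ∃ i, ∀ i', i' ≠ i → (ρ γ : Matrix ι ι K) i' j = 0) :
    ∃ (D : MonoData Γ ι K) (h : D.IsSL), D.toRep h = ρ := by
  let ρ' : Γ →* Matrix ι ι K :=
    { toFun := fun γ => (ρ γ : Matrix ι ι K)
      map_one' := by simp
      map_mul' := by intro a b; simp }
  obtain ⟨D, hD⟩ := exists_monoData_of_cols ρ' hmono
  have hSL : D.IsSL := by
    intro γ
    apply Units.ext
    rw [← MonoData.det_mat, hD γ, Units.val_one]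
    exact (ρ γ).2
  refine ⟨D, hSL, ?_⟩
  ext γ i j
  show D.mat γ i j = (ρ γ : Matrix ι ι K) i j
  rw [hD γ]
  rfl

end Extract

end Vale.Agent.H1.P002
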