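import Mathlib
import Vale.Agent.H1.P002.Base

/-!
Density of integral monomial representations among complex monomial representations subject to
a condition that only depends on the permutation action and on finitely many coefficients of
finite order.
-/

namespace Vale.Agent.H1.P002

open NumberField

instance cocMod_fg_inst {Γ : Type} [Group Γ] [Group.FG Γ] {ι : Type} [Fintype ι]
    (π : Γ →* Equiv.Perm ι) (Bd : Set (Γ × ι)) : Group.FG (CocMod π Bd) :=
  cocMod_fg π Bd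

theorem finite_hom_of_fg (Γ : Type) [Group Γ] [Group.FG Γ] (H : Type) [Group H] [Finite H] :
    Finite (Γ →* H) := by
  obtain ⟨S, hS, hSfin⟩ := Group.fg_iff.mp (inferInstance : Group.FG Γ)
  have : Finite S := hSfin.to_subtype
  apply Finite.of_injective (fun (φ : Γ →* H) (s : S) => φ s)
  intro φ ψ h
  apply MonoidHom.eq_of_eqOn_dense hS
  intro s hs
  exact congrFun h ⟨s, hs⟩

theorem rep_congr {Γ : Type} [Group Γ] {r : ℕ}
    (f : (Γ →* Matrix.SpecialLinearGroup (Fin r) ℂ) → ℂ)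
    {D₁ D₂ : MonoData Γ (Fin r) ℂ} (h : D₁ = D₂) (h₁ : D₁.IsSL) (h₂ : D₂.IsSL) :
    f (D₁.toRep h₁) = f (D₂.toRep h₂) := by
  subst h
  rfl

/-- Relative density theorem for monomial representations. The condition `P` on complex monomial
data only depends on the permutation action and on the coefficients at the pairs in `Bd`, which
have finite order, and there are finitely many possibilities for these (recorded by `ty`). -/
theorem mono_density_rel {Γ : Type} [Group Γ] [Group.FG Γ] (r : ℕ)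
    (P : MonoData Γ (Fin r) ℂ → Prop)
    (Bd : (Γ →* Equiv.Perm (Fin r)) → Set (Γ × Fin r))
    {T : Type} [Finite T] (ty : MonoData Γ (Fin r) ℂ → T)
    (H1 : ∀ D D', P D → P D' → ty D = ty D' →
      D.perm = D'.perm ∧ ∀ b ∈ Bd D.perm, D.coef b.1 b.2 = D'.coef b.1 b.2)
    (H2 : ∀ D D', D.perm = D'.perm →
      (∀ b ∈ Bd D.perm, D.coef b.1 b.2 = D'.coef b.1 b.2) → P D → P D')
    (H3 : ∀ D, P D → ∀ b ∈ Bd D.perm, IsOfFinOrder (D.coef b.1 b.2)) :
    ∃ N : ℕ, N ≠ 0 ∧ ∀ L : IntermediateField ℚ ℂ, ((Real.sqrt 2 : ℝ) : ℂ) ∈ L →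
      ∀ ζ : ℂ, ζ ∈ L → IsPrimitiveRoot ζ N →
      ∀ f ∈ traceAlgebra Γ r,
        (∀ (D₀ : MonoData Γ (Fin r) (𝓞 L)) (h : D₀.IsSL), P (D₀.map (toCplx L)) →
          f ((Matrix.SpecialLinearGroup.map (toCplx L)).comp (D₀.toRep h)) = 0) →
        ∀ (D : MonoData Γ (Fin r) ℂ) (h : D.IsSL), P D → f (D.toRep h) = 0 := by
  classical
  have hfinπ : Finite (Γ →* Equiv.Perm (Fin r)) := finite_hom_of_fg Γ _
  have hsepall : ∀ π : Γ →* Equiv.Perm (Fin r), ∃ N : ℕ, N ≠ 0 ∧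
      ∀ L : IntermediateField ℚ ℂ, ((Real.sqrt 2 : ℝ) : ℂ) ∈ L →
      ∀ ζ : ℂ, ζ ∈ L → IsPrimitiveRoot ζ N →
        ∀ m : CocMod π (Bd π), m ≠ 1 →
          ∃ l : CocMod π (Bd π) →* (𝓞 L)ˣ, toCplx L (l m : 𝓞 L) ≠ 1 :=
    fun π => exists_sep (CocMod π (Bd π))
  choose N' hN'0 hN' using hsepall
  have hbase : ∀ t : T, ∃ N : ℕ, N ≠ 0 ∧ ((∃ D, ty D = t ∧ D.IsSL ∧ P D) →
      ∃ D' : MonoData Γ (Fin r) ℂ, (∀ γ j, D'.coef γ j ^ N = 1) ∧ D'.IsSL ∧ P D' ∧
        ∀ D, P D → ty D = t →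
          D.perm = D'.perm ∧ ∀ b ∈ Bd D.perm, D.coef b.1 b.2 = D'.coef b.1 b.2) := by
    intro t
    by_cases hA : ∃ D, ty D = t ∧ D.IsSL ∧ P D
    · obtain ⟨Dt, hty, hSLt, hPt⟩ := hA
      obtain ⟨D', N, hN, hperm, hpow, hfix, hprod⟩ := exists_torsion_data Dt
      have hbd : ∀ b ∈ Bd Dt.perm, Dt.coef b.1 b.2 = D'.coef b.1 b.2 := fun b hb =>
        (hfix b.1 b.2 (H3 Dt hPt b hb)).symm
      refine ⟨N, hN, fun _ => ⟨D', hpow, ?_, H2 Dt D' hperm.symm hbd hPt, ?_⟩⟩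
      · intro γ
        have h1 := hSLt γ
        unfold MonoData.detU at h1 ⊢
        have hfin : IsOfFinOrder (∏ j, Dt.coef γ j) := by
          have h2 : ∏ j, Dt.coef γ j =
              (Units.map (Int.castRingHom ℂ : ℤ →* ℂ) (Equiv.Perm.sign (Dt.perm γ)))⁻¹ :=
            eq_inv_of_mul_eq_one_right h1
          rw [h2]
          apply IsOfFinOrder.inv
          apply MonoidHom.isOfFinOrder
          exact isOfFinOrder_of_finite _
        rw [hprod γ hfin, hperm]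
        exact h1
      · intro D hPD htyD
        obtain ⟨hp1, hb1⟩ := H1 D Dt hPD hPt (htyD.trans hty.symm)
        refine ⟨hp1.trans hperm.symm, fun b hb => ?_⟩
        rw [hb1 b hb]
        exact hbd b (hp1 ▸ hb)
    · exact ⟨1, one_ne_zero, fun h => absurd h hA⟩
  choose Nt hNt0 hNt using hbase
  let _ : Fintype T := Fintype.ofFinite T
  let _ : Fintype (Γ →* Equiv.Perm (Fin r)) := Fintype.ofFinite _
  have hNpos : (∏ π, N' π) * ∏ t, Nt t ≠ 0 :=
    mul_ne_zero (Finset.prod_ne_zero_iff.mpr fun π _ => hN'0 π)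
      (Finset.prod_ne_zero_iff.mpr fun t _ => hNt0 t)
  refine ⟨(∏ π, N' π) * ∏ t, Nt t, hNpos, ?_⟩
  intro L hsL ζ hζL hζ f hf hint D hSL hP
  set N : ℕ := (∏ π, N' π) * ∏ t, Nt t with hNdef
  have hroot : ∀ k : ℕ, k ∣ N → IsPrimitiveRoot (ζ ^ (N / k)) k := fun k hk =>
    IsPrimitiveRoot.pow (Nat.pos_of_ne_zero hNpos) hζ (Nat.div_mul_cancel hk).symm
  have hdvdt : ∀ t, Nt t ∣ N := fun t =>
    Dvd.dvd.mul_left (Finset.dvd_prod_of_mem _ (Finset.mem_univ t)) _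
  have hdvdπ : ∀ π, N' π ∣ N := fun π =>
    Dvd.dvd.mul_right (Finset.dvd_prod_of_mem _ (Finset.mem_univ π)) _
  obtain ⟨D', hpow, hSL', hP', hcompat⟩ := hNt (ty D) ⟨D, rfl, hSL, hP⟩
  obtain ⟨hperm, hbd⟩ := hcompat D hP rfl
  obtain ⟨D₀, hD₀perm, hD₀coef⟩ := exists_int_lift D' (Nt (ty D)) (hNt0 _) hpow L _
    (pow_mem hζL _) (hroot _ (hdvdt _))
  have hD₀map : D₀.map (toCplx L) = D' :=
    MonoData.ext' hD₀perm (funext fun γ => funext fun j => Units.ext (hD₀coef γ j))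
  have hSL₀ : D₀.IsSL := by
    intro γ
    apply Units.ext
    apply toCplx_injective
    have h1 := MonoData.detU_map D₀ (toCplx L) γ
    rw [hD₀map, hSL' γ] at h1
    have h2 := congrArg Units.val h1
    rw [Units.coe_map, Units.val_one] at h2
    rw [Units.val_one, map_one]
    exact h2.symm
  have hπD : D.perm = D₀.perm := hperm.trans hD₀perm.symm
  have hπD' : D'.perm = D₀.perm := hD₀perm.symm
  let e : Γ → Fin r → ℂˣ := fun γ j => D.coef γ j / D'.coef γ j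
  have he : IsCocycle D₀.perm e := by
    intro γ γ' j
    show D.coef (γ * γ') j / D'.coef (γ * γ') j =
      (D.coef γ (D₀.perm γ' j) / D'.coef γ (D₀.perm γ' j)) * (D.coef γ' j / D'.coef γ' j)
    rw [D.coef_mul, D'.coef_mul, hπD, hπD', div_mul_div_comm]
  have heprod : ∀ γ, ∏ j, e γ j = 1 := by
    intro γ
    show ∏ j, D.coef γ j / D'.coef γ j = 1
    rw [Finset.prod_div_distrib]
    have h1 := hSL γ
    have h2 := hSL' γ
    unfold MonoData.detU at h1 h2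
    rw [hπD] at h1
    rw [hπD'] at h2
    rw [div_eq_one]
    exact mul_left_cancel (h1.trans h2.symm)
  have hebd : ∀ b ∈ Bd D₀.perm, e b.1 b.2 = 1 := by
    intro b hb
    show D.coef b.1 b.2 / D'.coef b.1 b.2 = 1
    rw [div_eq_one]
    exact hbd b (hπD ▸ hb)
  let φ : CocMod D₀.perm (Bd D₀.perm) →* ℂˣ := cocLift D₀.perm (Bd D₀.perm) e he heprod hebd
  have hg : IsCocycle D₀.perm (gen D₀.perm (Bd D₀.perm)) := gen_isCocycle _ _
  have hgp : ∀ γ, ∏ j, gen D₀.perm (Bd D₀.perm) γ j = 1 := gen_prod _ _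
  have key : D = (D₀.map (toCplx L)).twistM (gen D₀.perm (Bd D₀.perm)) hg φ := by
    apply MonoData.ext'
    · exact hπD
    · funext γ j
      show D.coef γ j = (D₀.map (toCplx L)).coef γ j *
        cocLift D₀.perm (Bd D₀.perm) e he heprod hebd (gen D₀.perm (Bd D₀.perm) γ j)
      rw [hD₀map, cocLift_gen]
      show D.coef γ j = D'.coef γ j * (D.coef γ j / D'.coef γ j)
      rw [mul_div_cancel]
  rw [rep_congr f key hSL ((D₀.map (toCplx L)).isSL_twistM (D₀.isSL_map _ hSL₀) _ hg hgp φ)]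
  apply core_mono (toCplx L) (hN' D₀.perm L hsL _ (pow_mem hζL _) (hroot _ (hdvdπ _)))
    D₀ hSL₀ _ hg hgp hf
  intro l
  apply hint
  apply H2 D' _ _ _ hP'
  · exact hπD'
  · intro b hb
    have hb' : b ∈ Bd D₀.perm := hπD' ▸ hb
    apply Units.ext
    rw [← hD₀coef]
    show toCplx L (D₀.coef b.1 b.2 : 𝓞 L) =
      toCplx L ((D₀.coef b.1 b.2 * l (gen D₀.perm (Bd D₀.perm) b.1 b.2) : (𝓞 L)ˣ) : 𝓞 L)
    rw [gen_bd _ _ b hb', map_one, mul_one]

end Vale.Agent.H1.P002
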