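import Mathlib
import Vale.Agent.H1.P002.MonoThm

/-!
Boundary conditions for monomial representations: prescribing the characteristic polynomials of
finitely many group elements, all of whose roots are roots of unity.
-/

namespace Vale.Agent.H1.P002

open NumberField

section Potential

variable {ι : Type} [Fintype ι] [DecidableEq ι]

/-- The product of `u` along the first `k` points of the orbit of `x`. -/
def orbProd (p : Equiv.Perm ι) (u : ι → ℂˣ) (k : ℕ) (x : ι) : ℂˣ :=
  ∏ t ∈ Finset.range k, u ((p ^ t) x)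

theorem orbProd_add (p : Equiv.Perm ι) (u : ι → ℂˣ) (k m : ℕ) (x : ι) :
    orbProd p u (k + m) x = orbProd p u k x * orbProd p u m ((p ^ k) x) := by
  unfold orbProd
  rw [Finset.prod_range_add]
  congr 1
  apply Finset.prod_congr rfl
  intro t _
  rw [add_comm, pow_add, Equiv.Perm.mul_apply]

/-- A function on a finite set whose products along all closed orbits are trivial is a
multiplicative coboundary for the permutation. -/
theorem exists_potential (p : Equiv.Perm ι) (u : ι → ℂˣ) (K : ℕ) (hK : orderOf p ≤ K)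
    (hu : ∀ j k, 0 < k → k ≤ K → (p ^ k) j = j → orbProd p u k j = 1) :
    ∃ t : ι → ℂˣ, ∀ j, t (p j) = u j * t j := by
  have hUeq : ∀ x k k', k ≤ k' → k' ≤ K → (p ^ k) x = (p ^ k') x →
      orbProd p u k x = orbProd p u k' x := by
    intro x k k' hkk' hk' h
    obtain ⟨m, rfl⟩ := Nat.exists_eq_add_of_le hkk'
    rw [orbProd_add]
    rcases Nat.eq_zero_or_pos m with rfl | hm
    · simp [orbProd]
    · have h3 : (p ^ m) ((p ^ k) x) = (p ^ k) x := by
        rw [← Equiv.Perm.mul_apply, ← pow_add, add_comm]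
        exact h.symm
      rw [hu ((p ^ k) x) m hm (by omega) h3, mul_one]
  let s : Setoid ι := Equiv.Perm.SameCycle.setoid p
  let rep : ι → ι := fun j => (Quotient.mk s j).out
  have hrep : ∀ j, Equiv.Perm.SameCycle p (rep j) j := fun j => Quotient.mk_out (s := s) j
  have hrep' : ∀ j, rep (p j) = rep j := by
    intro j
    have h1 : Quotient.mk s (p j) = Quotient.mk s j :=
      Quotient.sound (Equiv.Perm.sameCycle_apply_left.mpr (Equiv.Perm.SameCycle.refl p j))
    show (Quotient.mk s (p j)).out = (Quotient.mk s j).out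
    rw [h1]
  have hex : ∀ j, ∃ k, k < orderOf p ∧ (p ^ k) (rep j) = j :=
    fun j => (hrep j).exists_pow_eq'
  choose kk hkk1 hkk2 using hex
  refine ⟨fun j => orbProd p u (kk j) (rep j), fun j => ?_⟩
  show orbProd p u (kk (p j)) (rep (p j)) = u j * orbProd p u (kk j) (rep j)
  rw [hrep' j]
  have h1 : (p ^ (kk (p j))) (rep j) = (p ^ (kk j + 1)) (rep j) := by
    have h2 := hkk2 (p j)
    rw [hrep' j] at h2
    rw [h2, add_comm, pow_add, pow_one, Equiv.Perm.mul_apply, hkk2 j]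
  have h2 : orbProd p u (kk (p j)) (rep j) = orbProd p u (kk j + 1) (rep j) := by
    rcases le_total (kk (p j)) (kk j + 1) with h | h
    · exact hUeq _ _ _ h (by have := hkk1 j; omega) h1
    · exact (hUeq _ _ _ h (by have := hkk1 (p j); omega) h1.symm).symm
  rw [h2, orbProd_add, hkk2 j]
  simp [orbProd, mul_comm]

end Potential

section CoefPow

variable {Γ : Type} [Group Γ] {ι : Type} {R : Type} [CommRing R]

theorem MonoData.coef_pow (D : MonoData Γ ι R) (γ : Γ) (k : ℕ) (j : ι) :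
    D.coef (γ ^ k) j = ∏ t ∈ Finset.range k, D.coef γ ((D.perm γ ^ t) j) := by
  induction k with
  | zero => simp [MonoData.coef_one]
  | succ k ih =>
    rw [pow_succ', D.coef_mul, ih, Finset.prod_range_succ, map_pow, mul_comm]

theorem MonoData.mat_pow [Fintype ι] [DecidableEq ι] (D : MonoData Γ ι R) (γ : Γ) (k : ℕ) :
    D.mat (γ ^ k) = D.mat γ ^ k := by
  induction k with
  | zero => rw [pow_zero, pow_zero, D.mat_one]
  | succ k ih => rw [pow_succ, pow_succ, D.mat_mul, ih]

end CoefPow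

section Charpoly

variable {Γ : Type} [Group Γ] {ι : Type} [Fintype ι] [DecidableEq ι]

/-- Two monomial matrices with the same permutation and the same coefficient products along
closed orbits have the same characteristic polynomial (they are conjugate by a diagonal
matrix). -/
theorem charpoly_mat_eq (D D' : MonoData Γ ι ℂ) (γ : Γ) (K : ℕ)
    (hK : orderOf (D.perm γ) ≤ K) (hperm : D.perm γ = D'.perm γ)
    (hcoef : ∀ j k, 0 < k → k ≤ K → (D.perm γ ^ k) j = j →
      D.coef (γ ^ k) j = D'.coef (γ ^ k) j) :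
    (D'.mat γ).charpoly = (D.mat γ).charpoly := by
  obtain ⟨t, ht⟩ := exists_potential (D.perm γ) (fun j => D'.coef γ j / D.coef γ j) K hK (by
    intro j k hk hkK hfix
    unfold orbProd
    rw [Finset.prod_div_distrib, ← D.coef_pow, div_eq_one, hcoef j k hk hkK hfix, D'.coef_pow,
      hperm])
  let Tm : Matrix ι ι ℂ := monoMat 1 (fun j => ((t j : ℂˣ) : ℂ))
  let Ti : Matrix ι ι ℂ := monoMat 1 (fun j => (((t j)⁻¹ : ℂˣ) : ℂ))
  have h2 : Ti * Tm = 1 := by
    show monoMat 1 (fun j => (((t j)⁻¹ : ℂˣ) : ℂ)) * monoMat 1 (fun j => ((t j : ℂˣ) : ℂ)) = 1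
    rw [monoMat_mul, mul_one]
    have h : (fun j => (((t ((1 : Equiv.Perm ι) j))⁻¹ : ℂˣ) : ℂ) * ((t j : ℂˣ) : ℂ)) =
        fun _ => (1 : ℂ) := by
      funext j
      rw [Equiv.Perm.one_apply, ← Units.val_mul, inv_mul_cancel, Units.val_one]
    rw [h, monoMat_one]
  have h3 : D'.mat γ = Tm * D.mat γ * Ti := by
    show monoMat (D'.perm γ) (fun j => ((D'.coef γ j : ℂˣ) : ℂ)) =
      monoMat 1 (fun j => ((t j : ℂˣ) : ℂ)) * monoMat (D.perm γ) (fun j => ((D.coef γ j : ℂˣ) : ℂ))
        * monoMat 1 (fun j => (((t j)⁻¹ : ℂˣ) : ℂ))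
    rw [monoMat_mul, monoMat_mul, one_mul, mul_one, hperm]
    congr 1
    funext j
    rw [Equiv.Perm.one_apply, ← hperm, ht j, ← Units.val_mul, ← Units.val_mul]
    congr 1
    rw [div_eq_mul_inv]
    calc D'.coef γ j = D'.coef γ j * ((D.coef γ j)⁻¹ * D.coef γ j) * (t j * (t j)⁻¹) := by
          rw [inv_mul_cancel, mul_inv_cancel, mul_one, mul_one]
      _ = D'.coef γ j * (D.coef γ j)⁻¹ * t j * D.coef γ j * (t j)⁻¹ := by
          simp only [mul_assoc, mul_comm, mul_left_comm]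
  rw [h3, mul_assoc, Matrix.charpoly_mul_comm, mul_assoc, h2, mul_one]

/-- If every root of the characteristic polynomial of a monomial matrix is an `n`-th root of
unity, the coefficient products along closed orbits are `n`-th roots of unity. -/
theorem coef_pow_eq_one (D : MonoData Γ ι ℂ) (γ : Γ) (q : Polynomial ℂ) (n : ℕ)
    (hq : ∀ μ : ℂ, q.IsRoot μ → μ ^ n = 1) (hch : (D.mat γ).charpoly = q)
    (k : ℕ) (hk : 0 < k) (j : ι) (hfix : D.perm (γ ^ k) j = j) :
    (D.coef (γ ^ k) j) ^ n = 1 := by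
  have hmem : ((D.coef (γ ^ k) j : ℂˣ) : ℂ) ∈ spectrum ℂ (D.mat (γ ^ k)) := by
    rw [Matrix.mem_spectrum_iff_isRoot_charpoly, Polynomial.IsRoot.def, Matrix.eval_charpoly]
    apply Matrix.exists_mulVec_eq_zero_iff.mp
    refine ⟨Pi.single j 1, ?_, ?_⟩
    · intro h
      have := congrFun h j
      simp at this
    · funext i
      rw [Matrix.sub_mulVec, Matrix.scalar_apply, Pi.sub_apply, Matrix.mulVec_diagonal,
        Matrix.mulVec_single_one]
      show ((D.coef (γ ^ k) j : ℂˣ) : ℂ) * (Pi.single j (1 : ℂ) : ι → ℂ) i - D.mat (γ ^ k) i j = 0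
      unfold MonoData.mat
      rw [monoMat_apply, hfix, Pi.single_apply]
      split_ifs <;> simp
  rw [D.mat_pow, spectrum.map_pow_of_pos _ hk] at hmem
  obtain ⟨μ, hμ, hμk⟩ := hmem
  rw [Matrix.mem_spectrum_iff_isRoot_charpoly, hch] at hμ
  apply Units.ext
  rw [Units.val_pow_eq_pow_val, Units.val_one, ← hμk]
  show (μ ^ k) ^ n = 1
  rw [← pow_mul, mul_comm, pow_mul, hq μ hμ, one_pow]

end Charpoly

section Density

/-- Relative density of integral monomial representations with prescribed characteristic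
polynomials (all of whose roots are `n`-th roots of unity) at finitely many group elements. -/
theorem mono_density_bd {Γ : Type} [Group Γ] [Group.FG Γ] (r s : ℕ) (γ : Fin s → Γ)
    (n : ℕ) (hn : n ≠ 0) (q : Fin s → Polynomial ℂ)
    (hq : ∀ i (μ : ℂ), (q i).IsRoot μ → μ ^ n = 1) :
    ∃ N : ℕ, N ≠ 0 ∧ ∀ L : IntermediateField ℚ ℂ, ((Real.sqrt 2 : ℝ) : ℂ) ∈ L →
      ∀ ζ : ℂ, ζ ∈ L → IsPrimitiveRoot ζ N →
      ∀ f ∈ traceAlgebra Γ r,
        (∀ (D₀ : MonoData Γ (Fin r) (𝓞 L)) (h : D₀.IsSL),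
          (∀ i, ((D₀.map (toCplx L)).mat (γ i)).charpoly = q i) →
          f ((Matrix.SpecialLinearGroup.map (toCplx L)).comp (D₀.toRep h)) = 0) →
        ∀ (D : MonoData Γ (Fin r) ℂ) (h : D.IsSL),
          (∀ i, (D.mat (γ i)).charpoly = q i) → f (D.toRep h) = 0 := by
  classical
  haveI : NeZero n := ⟨hn⟩
  have hfin : Finite (Γ →* Equiv.Perm (Fin r)) := finite_hom_of_fg Γ _
  let K : ℕ := Fintype.card (Equiv.Perm (Fin r))
  let P : MonoData Γ (Fin r) ℂ → Prop := fun D => ∀ i, (D.mat (γ i)).charpoly = q i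
  let Bd : (Γ →* Equiv.Perm (Fin r)) → Set (Γ × Fin r) := fun π =>
    {b | ∃ i k, 0 < k ∧ k ≤ K ∧ b.1 = γ i ^ k ∧ π (γ i ^ k) b.2 = b.2}
  let ty : MonoData Γ (Fin r) ℂ → (Γ →* Equiv.Perm (Fin r)) ×
      (Fin s → Fin (K + 1) → Fin r → rootsOfUnity n ℂ) := fun D =>
    (D.perm, fun i k j =>
      if h : D.coef (γ i ^ (k : ℕ)) j ∈ rootsOfUnity n ℂ then ⟨_, h⟩ else 1)
  have hroot : ∀ D, P D → ∀ i k, 0 < k → ∀ j, D.perm (γ i ^ k) j = j →
      D.coef (γ i ^ k) j ∈ rootsOfUnity n ℂ := by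
    intro D hP i k hk j hfix
    rw [mem_rootsOfUnity]
    exact coef_pow_eq_one D (γ i) (q i) n (hq i) (hP i) k hk j hfix
  have H1 : ∀ D D', P D → P D' → ty D = ty D' →
      D.perm = D'.perm ∧ ∀ b ∈ Bd D.perm, D.coef b.1 b.2 = D'.coef b.1 b.2 := by
    intro D D' hP hP' hty
    have hperm : D.perm = D'.perm := congrArg Prod.fst hty
    refine ⟨hperm, ?_⟩
    rintro ⟨g, j⟩ ⟨i, k, hk, hkK, hg, hfix⟩
    simp only at hg hfix
    subst hg
    have h1 := hroot D hP i k hk j hfix
    have h2 := hroot D' hP' i k hk j (hperm ▸ hfix)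
    have h3 := congrFun (congrFun (congrFun (congrArg Prod.snd hty) i) ⟨k, by omega⟩) j
    simp only [ty] at h3
    rw [dif_pos h1, dif_pos h2] at h3
    exact congrArg Subtype.val h3
  have H2 : ∀ D D', D.perm = D'.perm →
      (∀ b ∈ Bd D.perm, D.coef b.1 b.2 = D'.coef b.1 b.2) → P D → P D' := by
    intro D D' hperm hb hP i
    rw [← hP i]
    apply charpoly_mat_eq D D' (γ i) K orderOf_le_card_univ (by rw [hperm])
    intro j k hk hkK hfix
    exact hb (γ i ^ k, j) ⟨i, k, hk, hkK, rfl, by rw [map_pow]; exact hfix⟩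
  have H3 : ∀ D, P D → ∀ b ∈ Bd D.perm, IsOfFinOrder (D.coef b.1 b.2) := by
    rintro D hP ⟨g, j⟩ ⟨i, k, hk, hkK, hg, hfix⟩
    simp only at hg hfix
    subst hg
    rw [isOfFinOrder_iff_pow_eq_one]
    exact ⟨n, Nat.pos_of_ne_zero hn, (mem_rootsOfUnity _ _).mp (hroot D hP i k hk j hfix)⟩
  exact mono_density_rel r P Bd ty H1 H2 H3

end Density

end Vale.Agent.H1.P002
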