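import Mathlib
import Vale.Agent.H1.P002.Triang
import Vale.Agent.H1.P002.MonoThm

/-!
Irreducible finite-dimensional complex representations of nilpotent groups are monomial, and
every finite-dimensional complex representation of a nilpotent group has the same traces and
determinants as a monomial one.
-/

namespace Vale.Agent.H1.P002

open Module

/-- The subspace `W` is invariant under the representation `ρ`. -/
def IsInv {G : Type} [Group G] {V : Type} [AddCommGroup V] [Module ℂ V]
    (ρ : G →* Module.End ℂ V) (W : Submodule ℂ V) : Prop :=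
  ∀ g, W ≤ W.comap (ρ g)

theorem rep_inv_mul {G : Type} [Group G] {V : Type} [AddCommGroup V] [Module ℂ V]
    (ρ : G →* Module.End ℂ V) (g : G) : ρ g⁻¹ * ρ g = 1 := by
  rw [← map_mul, inv_mul_cancel, map_one]

theorem rep_mul_inv {G : Type} [Group G] {V : Type} [AddCommGroup V] [Module ℂ V]
    (ρ : G →* Module.End ℂ V) (g : G) : ρ g * ρ g⁻¹ = 1 := by
  rw [← map_mul, mul_inv_cancel, map_one]

theorem rep_ne_zero {G : Type} [Group G] {V : Type} [AddCommGroup V] [Module ℂ V]
    [Nontrivial V] (ρ : G →* Module.End ℂ V) (g : G) : ρ g ≠ 0 := by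
  intro h
  have h1 := rep_inv_mul ρ g
  rw [h, mul_zero] at h1
  exact zero_ne_one h1

theorem rep_injective {G : Type} [Group G] {V : Type} [AddCommGroup V] [Module ℂ V]
    (ρ : G →* Module.End ℂ V) (g : G) : Function.Injective (ρ g) := by
  intro v w h
  have h1 := congrArg (ρ g⁻¹) h
  have h2 : ∀ u, ρ g⁻¹ (ρ g u) = u := by
    intro u
    have := congrArg (fun T : Module.End ℂ V => T u) (rep_inv_mul ρ g)
    simpa using this
  rw [h2, h2] at h1
  exact h1

theorem exists_twisted_comm {G : Type} [Group G] [Group.IsNilpotent G] {V : Type}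
    [AddCommGroup V] [Module ℂ V] (ρ : G →* Module.End ℂ V) (g₀ : G)
    (hg₀ : ∀ c : ℂ, ρ g₀ ≠ c • 1) :
    ∃ x : G, (∀ c : ℂ, ρ x ≠ c • 1) ∧ ∀ g, ∃ c : ℂ, ρ x * ρ g = c • (ρ g * ρ x) := by
  classical
  obtain ⟨m, hm⟩ := Group.IsNilpotent.nilpotent G
  have hex : ∃ i, ∃ x ∈ Subgroup.upperCentralSeries G i, ∀ c : ℂ, ρ x ≠ c • 1 :=
    ⟨m, g₀, by rw [hm]; trivial, hg₀⟩
  obtain ⟨x, hxi, hx⟩ := Nat.find_spec hex
  have hi0 : Nat.find hex ≠ 0 := by
    intro h0
    rw [h0, Subgroup.upperCentralSeries_zero, Subgroup.mem_bot] at hxi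
    apply hx 1
    rw [hxi, map_one, one_smul]
  obtain ⟨i', hi'⟩ := Nat.exists_eq_succ_of_ne_zero hi0
  have hlow : ∀ y ∈ Subgroup.upperCentralSeries G i', ∃ c : ℂ, ρ y = c • 1 := by
    intro y hy
    by_contra hcon
    push Not at hcon
    exact Nat.find_min hex (by omega) ⟨y, hy, hcon⟩
  refine ⟨x, hx, fun g => ?_⟩
  rw [hi'] at hxi
  have hmem : x * g * x⁻¹ * g⁻¹ ∈ Subgroup.upperCentralSeries G i' :=
    Subgroup.mem_upperCentralSeries_succ_iff.mp hxi g
  obtain ⟨c, hc⟩ := hlow _ hmem
  refine ⟨c, ?_⟩
  have h1 : ρ (x * g) = ρ (x * g * x⁻¹ * g⁻¹) * ρ (g * x) := by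
    rw [← map_mul]
    congr 1
    group
  rw [← map_mul, h1, hc, map_mul, smul_mul_assoc, one_mul]

theorem cf_props {G : Type} [Group G] {V : Type} [AddCommGroup V] [Module ℂ V] [Nontrivial V]
    (ρ : G →* Module.End ℂ V) (x : G) (cf : G → ℂ)
    (h : ∀ g, ρ x * ρ g = cf g • (ρ g * ρ x)) :
    cf 1 = 1 ∧ ∀ g h', cf (g * h') = cf g * cf h' := by
  have hinj : ∀ (y : G) (a b : ℂ), a • ρ y = b • ρ y → a = b := by
    intro y a b hab
    have h0 : (a - b) • ρ y = 0 := by rw [sub_smul, hab, sub_self]
    rcases smul_eq_zero.mp h0 with h1 | h1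
    · exact sub_eq_zero.mp h1
    · exact absurd h1 (rep_ne_zero ρ y)
  constructor
  · have h1 := h 1
    rw [map_one, mul_one, one_mul] at h1
    exact (hinj x 1 (cf 1) (by rw [one_smul]; exact h1)).symm
  · intro g h'
    apply hinj (g * h' * x)
    have e1 : ρ x * ρ (g * h') = cf (g * h') • (ρ (g * h') * ρ x) := h (g * h')
    have e2 : ρ x * ρ (g * h') = (cf g * cf h') • (ρ (g * h') * ρ x) := by
      rw [map_mul, ← mul_assoc, h g, smul_mul_assoc, mul_assoc, h h', mul_smul_comm, smul_smul,
        mul_assoc]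
    rw [map_mul ρ (g * h') x, ← e1, ← e2]

theorem map_eigenspace {G : Type} [Group G] {V : Type} [AddCommGroup V] [Module ℂ V]
    (ρ : G →* Module.End ℂ V) (x g : G) (c : ℂ) (h : ρ x * ρ g = c • (ρ g * ρ x)) (μ : ℂ)
    (v : V) (hv : v ∈ Module.End.eigenspace (ρ x) μ) :
    ρ g v ∈ Module.End.eigenspace (ρ x) (c * μ) := by
  rw [Module.End.mem_eigenspace_iff] at hv ⊢
  have h1 := congrArg (fun T : Module.End ℂ V => T v) h
  simp only [Module.End.mul_apply, LinearMap.smul_apply] at h1
  rw [h1, hv, map_smul, smul_smul]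

/-- The linear equivalence between two subspaces induced by `ρ g`. -/
noncomputable def repEquiv {G : Type} [Group G] {V : Type} [AddCommGroup V] [Module ℂ V]
    (ρ : G →* Module.End ℂ V) (g : G) (p q : Submodule ℂ V)
    (h1 : ∀ v ∈ p, ρ g v ∈ q) (h2 : ∀ v ∈ q, ρ g⁻¹ v ∈ p) : p ≃ₗ[ℂ] q :=
  LinearEquiv.ofLinearMap ((ρ g).restrict h1) ((ρ g⁻¹).restrict h2)
    (by
      apply LinearMap.ext
      intro v
      apply Subtype.ext
      show ρ g (ρ g⁻¹ v) = v
      have := congrArg (fun T : Module.End ℂ V => T (v : V)) (rep_mul_inv ρ g)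
      simpa using this)
    (by
      apply LinearMap.ext
      intro v
      apply Subtype.ext
      show ρ g⁻¹ (ρ g v) = v
      have := congrArg (fun T : Module.End ℂ V => T (v : V)) (rep_inv_mul ρ g)
      simpa using this)

theorem repEquiv_apply {G : Type} [Group G] {V : Type} [AddCommGroup V] [Module ℂ V]
    (ρ : G →* Module.End ℂ V) (g : G) (p q : Submodule ℂ V)
    (h1 : ∀ v ∈ p, ρ g v ∈ q) (h2 : ∀ v ∈ q, ρ g⁻¹ v ∈ p) (v : p) :
    ((repEquiv ρ g p q h1 h2 v : q) : V) = ρ g v := rfl

/-- An irreducible finite-dimensional complex representation of a nilpotent group has a basis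
that is permuted up to scalars by the group. -/
theorem exists_mono_basis :
    ∀ (n : ℕ) (G : Type) [Group G] [Group.IsNilpotent G] (V : Type) [AddCommGroup V]
      [Module ℂ V] [FiniteDimensional ℂ V] [Nontrivial V] (ρ : G →* Module.End ℂ V),
      Module.finrank ℂ V = n → (∀ W : Submodule ℂ V, IsInv ρ W → W = ⊥ ∨ W = ⊤) →
      ∃ (κ : Type) (_ : Fintype κ) (b : Basis κ ℂ V),
        ∀ g k, ∃ (k' : κ) (c : ℂ), ρ g (b k) = c • b k' := by
  classical
  intro n
  induction n using Nat.strong_induction_on with
  | _ n ih =>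
    intro G _ _ V _ _ _ _ ρ hn hirr
    by_cases hs : ∀ g, ∃ c : ℂ, ρ g = c • 1
    · refine ⟨Fin (Module.finrank ℂ V), inferInstance, Module.finBasis ℂ V, fun g k => ?_⟩
      obtain ⟨c, hc⟩ := hs g
      exact ⟨k, c, by rw [hc]; simp⟩
    · push Not at hs
      obtain ⟨g₀, hg₀⟩ := hs
      obtain ⟨x, hx, hcomm⟩ := exists_twisted_comm ρ g₀ hg₀
      choose cf hcf using hcomm
      obtain ⟨hcf1, hcfmul⟩ := cf_props ρ x cf hcf
      have hcfinv : ∀ g, cf g⁻¹ * cf g = 1 := fun g => by
        rw [← hcfmul, inv_mul_cancel, hcf1]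
      have hWinv : IsInv ρ (⨆ μ : ℂ, Module.End.eigenspace (ρ x) μ) := by
        intro g
        rw [← Submodule.map_le_iff_le_comap, Submodule.map_iSup]
        apply iSup_le
        intro μ
        rintro _ ⟨v, hv, rfl⟩
        exact Submodule.mem_iSup_of_mem (cf g * μ)
          (map_eigenspace ρ x g (cf g) (hcf g) μ v hv)
      obtain ⟨lam, hlam⟩ := Module.End.exists_eigenvalue (ρ x)
      have hElam : Module.End.eigenspace (ρ x) lam ≠ ⊥ := hlam
      have hWtop : (⨆ μ : ℂ, Module.End.eigenspace (ρ x) μ) = ⊤ := by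
        refine (hirr _ hWinv).resolve_left (fun h => hElam ?_)
        rw [eq_bot_iff, ← h]
        exact le_iSup (fun μ => Module.End.eigenspace (ρ x) μ) lam
      have hEtop : Module.End.eigenspace (ρ x) lam ≠ ⊤ := by
        intro htop
        apply hx lam
        ext v
        have hv : v ∈ Module.End.eigenspace (ρ x) lam := by rw [htop]; trivial
        rw [Module.End.mem_eigenspace_iff] at hv
        simpa using hv
      have hlam0 : lam ≠ 0 := by
        intro h0
        obtain ⟨v, hv⟩ := hlam.exists_hasEigenvector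
        have h1 := hv.apply_eq_smul
        rw [h0, zero_smul] at h1
        have h2 : ρ x v = ρ x 0 := by rw [h1, map_zero]
        exact hv.2 (rep_injective ρ x h2)
      have hcfone : ∀ g, cf g * lam = lam → cf g = 1 := by
        intro g h
        have h1 : (cf g - 1) * lam = 0 := by rw [sub_mul, h, one_mul, sub_self]
        rcases mul_eq_zero.mp h1 with h2 | h2
        · exact sub_eq_zero.mp h2
        · exact absurd h2 hlam0
      let S : Subgroup G :=
        { carrier := {g | cf g = 1}
          mul_mem' := by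
            intro a b ha hb
            show cf (a * b) = 1
            rw [hcfmul, show cf a = 1 from ha, show cf b = 1 from hb, mul_one]
          one_mem' := hcf1
          inv_mem' := by
            intro a ha
            show cf a⁻¹ = 1
            have h1 := hcfinv a
            rw [show cf a = 1 from ha, mul_one] at h1
            exact h1 }
      have hSE : ∀ s : S, ∀ v ∈ Module.End.eigenspace (ρ x) lam,
          ρ s v ∈ Module.End.eigenspace (ρ x) lam := by
        intro s v hv
        have h1 := map_eigenspace ρ x s (cf s) (hcf s) lam v hv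
        rw [show cf (s : G) = 1 from s.2, one_mul] at h1
        exact h1
      let ρS : S →* Module.End ℂ (Module.End.eigenspace (ρ x) lam) :=
        { toFun := fun s => (ρ s).restrict (hSE s)
          map_one' := by
            apply LinearMap.ext
            intro v
            apply Subtype.ext
            show ρ ((1 : S) : G) v = v
            simp
          map_mul' := by
            intro a b
            apply LinearMap.ext
            intro v
            apply Subtype.ext
            show ρ ((a * b : S) : G) v = ρ a (ρ b v)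
            simp }
      have hρS : ∀ (s : S) (v : Module.End.eigenspace (ρ x) lam),
          ((ρS s v : Module.End.eigenspace (ρ x) lam) : V) = ρ s v := fun s v => rfl
      have hirrS : ∀ U : Submodule ℂ (Module.End.eigenspace (ρ x) lam),
          IsInv ρS U → U = ⊥ ∨ U = ⊤ := by
        intro U hU
        by_cases hU0 : U = ⊥
        · exact Or.inl hU0
        right
        have hU'E : U.map (Module.End.eigenspace (ρ x) lam).subtype ≤
            Module.End.eigenspace (ρ x) lam := by
          rintro _ ⟨u, _, rfl⟩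
          exact u.2
        have hU'ne : U.map (Module.End.eigenspace (ρ x) lam).subtype ≠ ⊥ := by
          intro h
          apply hU0
          rw [eq_bot_iff]
          intro u hu
          have h1 : (Module.End.eigenspace (ρ x) lam).subtype u ∈
              U.map (Module.End.eigenspace (ρ x) lam).subtype := ⟨u, hu, rfl⟩
          rw [h, Submodule.mem_bot] at h1
          rw [Submodule.mem_bot]
          exact Subtype.ext h1
        have hW'inv : IsInv ρ (⨆ g : G,
            (U.map (Module.End.eigenspace (ρ x) lam).subtype).map (ρ g)) := by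
          intro h
          rw [← Submodule.map_le_iff_le_comap, Submodule.map_iSup]
          apply iSup_le
          intro g
          rw [← Submodule.map_comp]
          have h1 : (ρ h).comp (ρ g) = ρ (h * g) := by rw [map_mul]; rfl
          rw [h1]
          exact le_iSup (fun g => (U.map (Module.End.eigenspace (ρ x) lam).subtype).map (ρ g))
            (h * g)
        have hW'ne : (⨆ g : G,
            (U.map (Module.End.eigenspace (ρ x) lam).subtype).map (ρ g)) ≠ ⊥ := by
          intro h
          apply hU'ne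
          rw [eq_bot_iff, ← h]
          refine le_trans ?_ (le_iSup (fun g =>
            (U.map (Module.End.eigenspace (ρ x) lam).subtype).map (ρ g)) 1)
          rw [map_one]
          intro v hv
          exact ⟨v, hv, rfl⟩
        have hW'top := (hirr _ hW'inv).resolve_left hW'ne
        have hW'le : (⨆ g : G, (U.map (Module.End.eigenspace (ρ x) lam).subtype).map (ρ g)) ≤
            U.map (Module.End.eigenspace (ρ x) lam).subtype ⊔
              ⨆ (μ : ℂ) (_ : μ ≠ lam), Module.End.eigenspace (ρ x) μ := by
          apply iSup_le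
          intro g
          by_cases hg : cf g = 1
          · refine le_trans ?_ le_sup_left
            rintro _ ⟨_, ⟨u, hu, rfl⟩, rfl⟩
            exact ⟨ρS ⟨g, hg⟩ u, hU ⟨g, hg⟩ hu, rfl⟩
          · refine le_trans ?_ le_sup_right
            have hne : cf g * lam ≠ lam := fun h => hg (hcfone g h)
            refine le_trans ?_ (le_iSup₂ (f := fun (μ : ℂ) (_ : μ ≠ lam) =>
              Module.End.eigenspace (ρ x) μ) (cf g * lam) hne)
            rintro _ ⟨v, hv, rfl⟩
            exact map_eigenspace ρ x g (cf g) (hcf g) lam v (hU'E hv)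
        have hdisj : Disjoint (Module.End.eigenspace (ρ x) lam)
            (⨆ (μ : ℂ) (_ : μ ≠ lam), Module.End.eigenspace (ρ x) μ) :=
          (Module.End.eigenspaces_iSupIndep (ρ x)) lam
        have hEU : Module.End.eigenspace (ρ x) lam ≤
            U.map (Module.End.eigenspace (ρ x) lam).subtype := by
          have h1 : Module.End.eigenspace (ρ x) lam ≤
              (U.map (Module.End.eigenspace (ρ x) lam).subtype ⊔
                ⨆ (μ : ℂ) (_ : μ ≠ lam), Module.End.eigenspace (ρ x) μ) ⊓
                Module.End.eigenspace (ρ x) lam := by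
            refine le_inf ?_ le_rfl
            refine le_trans ?_ hW'le
            rw [hW'top]
            exact le_top
          rw [sup_inf_assoc_of_le _ hU'E, inf_comm, disjoint_iff.mp hdisj, sup_bot_eq] at h1
          exact h1
        rw [eq_top_iff]
        intro u _
        obtain ⟨u', hu', hu'eq⟩ := hEU u.2
        have : u' = u := Subtype.ext hu'eq
        rw [← this]
        exact hu'
      have hntE : Nontrivial (Module.End.eigenspace (ρ x) lam) :=
        Submodule.nontrivial_iff_ne_bot.mpr hElam
      have hlt : Module.finrank ℂ (Module.End.eigenspace (ρ x) lam) < n :=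
        hn ▸ Submodule.finrank_lt hEtop
      obtain ⟨κ, hκ, b', hb'⟩ := ih _ hlt S (Module.End.eigenspace (ρ x) lam) ρS rfl hirrS
      have hsup : (⨆ g : G, (Module.End.eigenspace (ρ x) lam).map (ρ g)) = ⊤ := by
        refine (hirr _ ?_).resolve_left ?_
        · intro h
          rw [← Submodule.map_le_iff_le_comap, Submodule.map_iSup]
          apply iSup_le
          intro g
          rw [← Submodule.map_comp]
          have h1 : (ρ h).comp (ρ g) = ρ (h * g) := by rw [map_mul]; rfl
          rw [h1]
          exact le_iSup (fun g => (Module.End.eigenspace (ρ x) lam).map (ρ g)) (h * g)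
        · intro h
          apply hElam
          rw [eq_bot_iff, ← h]
          refine le_trans ?_ (le_iSup (fun g =>
            (Module.End.eigenspace (ρ x) lam).map (ρ g)) 1)
          rw [map_one]
          intro v hv
          exact ⟨v, hv, rfl⟩
      have hmapE : ∀ g, (Module.End.eigenspace (ρ x) lam).map (ρ g) ≤
          Module.End.eigenspace (ρ x) (cf g * lam) := by
        rintro g _ ⟨v, hv, rfl⟩
        exact map_eigenspace ρ x g (cf g) (hcf g) lam v hv
      have htrans : ∀ μ : ℂ, Module.End.eigenspace (ρ x) μ ≠ ⊥ → ∃ g, cf g * lam = μ := by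
        intro μ hμ
        by_contra hcon
        push Not at hcon
        apply hμ
        have hd : Disjoint (Module.End.eigenspace (ρ x) μ)
            (⨆ (ν : ℂ) (_ : ν ≠ μ), Module.End.eigenspace (ρ x) ν) :=
          (Module.End.eigenspaces_iSupIndep (ρ x)) μ
        have hle : (⊤ : Submodule ℂ V) ≤
            ⨆ (ν : ℂ) (_ : ν ≠ μ), Module.End.eigenspace (ρ x) ν := by
          rw [← hsup]
          apply iSup_le
          intro g
          exact le_trans (hmapE g) (le_iSup₂ (f := fun (ν : ℂ) (_ : ν ≠ μ) =>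
            Module.End.eigenspace (ρ x) ν) (cf g * lam) (hcon g))
        exact disjoint_top.mp (hd.mono_right hle)
      have hsel : ∀ μ : (ρ x).Eigenvalues, ∃ g, cf g * lam = (μ : ℂ) := fun μ => htrans μ.1 μ.2
      choose gsel hgsel using hsel
      let ε : ∀ μ : (ρ x).Eigenvalues, Module.End.eigenspace (ρ x) lam ≃ₗ[ℂ]
          Module.End.eigenspace (ρ x) (μ : ℂ) := fun μ =>
        repEquiv ρ (gsel μ) _ _
          (fun v hv => by
            have h1 := map_eigenspace ρ x (gsel μ) (cf (gsel μ)) (hcf (gsel μ)) lam v hv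
            rw [hgsel μ] at h1
            exact h1)
          (fun v hv => by
            have h1 := map_eigenspace ρ x (gsel μ)⁻¹ (cf (gsel μ)⁻¹) (hcf (gsel μ)⁻¹) _ v hv
            rw [← hgsel μ, ← mul_assoc, hcfinv, one_mul] at h1
            exact h1)
      have hind : iSupIndep (fun μ : (ρ x).Eigenvalues => Module.End.eigenspace (ρ x) (μ : ℂ)) :=
        (Module.End.eigenspaces_iSupIndep (ρ x)).comp Subtype.val_injective
      have hsupE : (⨆ μ : (ρ x).Eigenvalues, Module.End.eigenspace (ρ x) (μ : ℂ)) = ⊤ := by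
        rw [eq_top_iff, ← hWtop]
        apply iSup_le
        intro μ
        by_cases hμ : Module.End.eigenspace (ρ x) μ = ⊥
        · rw [hμ]
          exact bot_le
        · exact le_iSup (fun μ : (ρ x).Eigenvalues => Module.End.eigenspace (ρ x) (μ : ℂ))
            ⟨μ, hμ⟩
      have hInt := DirectSum.isInternal_submodule_of_iSupIndep_of_iSup_eq_top hind hsupE
      have hB : ∀ (μ : (ρ x).Eigenvalues) (k : κ),
          hInt.collectedBasis (fun μ => b'.map (ε μ)) ⟨μ, k⟩ = ρ (gsel μ) (b' k : V) := by
        intro μ k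
        rw [hInt.collectedBasis_coe]
        rfl
      refine ⟨Σ _ : (ρ x).Eigenvalues, κ, inferInstance,
        hInt.collectedBasis (fun μ => b'.map (ε μ)), ?_⟩
      rintro g ⟨μ, k⟩
      have hne0 : ρ g (ρ (gsel μ) (b' k : V)) ≠ 0 := by
        intro h0
        have h1 : ρ (gsel μ) (b' k : V) = 0 := rep_injective ρ g (by rw [h0, map_zero])
        have h2 : (b' k : V) = 0 := rep_injective ρ (gsel μ) (by rw [h1, map_zero])
        exact b'.ne_zero k (Subtype.ext h2)
      have hmem : ρ g (ρ (gsel μ) (b' k : V)) ∈ Module.End.eigenspace (ρ x) (cf g * (μ : ℂ)) := by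
        apply map_eigenspace ρ x g (cf g) (hcf g)
        have h1 := map_eigenspace ρ x (gsel μ) (cf (gsel μ)) (hcf (gsel μ)) lam _ (b' k).2
        rw [hgsel μ] at h1
        exact h1
      have hμ' : (ρ x).HasEigenvalue (cf g * (μ : ℂ)) :=
        Module.End.hasEigenvalue_of_hasEigenvector ⟨hmem, hne0⟩
      obtain ⟨μ', hμ'val⟩ : ∃ μ' : (ρ x).Eigenvalues, (μ' : ℂ) = cf g * (μ : ℂ) :=
        ⟨⟨_, hμ'⟩, rfl⟩
      have hs : cf ((gsel μ')⁻¹ * g * gsel μ) = 1 := by
        apply hcfone
        rw [hcfmul, hcfmul, mul_assoc, mul_assoc, hgsel μ, ← hμ'val, ← hgsel μ', ← mul_assoc,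
          hcfinv, one_mul]
      obtain ⟨k', c, hk'⟩ := hb' ⟨_, hs⟩ k
      refine ⟨⟨μ', k'⟩, c, ?_⟩
      rw [hB μ k, hB μ' k']
      have h1 : ρ g (ρ (gsel μ) (b' k : V)) = ρ (gsel μ')
          (ρ ((gsel μ')⁻¹ * g * gsel μ) (b' k : V)) := by
        have h2 : ρ g * ρ (gsel μ) = ρ (gsel μ') * ρ ((gsel μ')⁻¹ * g * gsel μ) := by
          rw [← map_mul, ← map_mul]
          congr 1
          group
        exact congrArg (fun T : Module.End ℂ V => T (b' k : V)) h2
      have h3 : ρ ((gsel μ')⁻¹ * g * gsel μ) (b' k : V) = c • (b' k' : V) :=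
        congrArg Subtype.val hk'
      rw [h1, h3, map_smul]

section CharpolyQuot

variable {R V : Type*} [CommRing R] [AddCommGroup V]
    [Module R V] [Module.Finite R V] [Module.Free R V]
    (W : Submodule R V) [Module.Free R W] [Module.Finite R W] [Module.Free R (V ⧸ W)]
    [Module.Finite R (V ⧸ W)]

open Module.Basis in
theorem charpoly_eq_charpoly_restrict_mul_charpoly_mapQ (e : V →ₗ[R] V) (he : W ≤ W.comap e) :
    e.charpoly = (e.restrict he).charpoly * (W.mapQ W e he).charpoly := by
  classical
  let m := Module.Free.ChooseBasisIndex R W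
  let bW : Basis m R W := Module.Free.chooseBasis R W
  let n := Module.Free.ChooseBasisIndex R (V ⧸ W)
  let bQ : Basis n R (V ⧸ W) := Module.Free.chooseBasis R (V ⧸ W)
  let b := sumQuot bW bQ
  let A : Matrix m m R := LinearMap.toMatrix bW bW (e.restrict he)
  let B : Matrix m n R := Matrix.of fun i l ↦
    ((sumQuot bW bQ).repr (e ((sumQuot bW bQ) (Sum.inr l)))) (Sum.inl i)
  let D : Matrix n n R := LinearMap.toMatrix bQ bQ (W.mapQ W e he)
  suffices LinearMap.toMatrix b b e = Matrix.fromBlocks A B 0 D by
    rw [← LinearMap.charpoly_toMatrix e b, this, ← LinearMap.charpoly_toMatrix (e.restrict he) bW,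
      ← LinearMap.charpoly_toMatrix (W.mapQ W e he) bQ, Matrix.charpoly_fromBlocks_zero₂₁]
  ext u v
  cases u with
  | inl i =>
    cases v with
    | inl k =>
      simp only [b, sumQuot_inl, Matrix.fromBlocks_apply₁₁, A, LinearMap.toMatrix_apply]
      apply sumQuot_repr_inl_of_mem
    | inr l => simp [b, LinearMap.toMatrix_apply, Matrix.fromBlocks_apply₁₂, B]
  | inr j =>
    cases v with
    | inl k =>
      suffices W.mkQ (e (bW k)) = 0 by simp [LinearMap.toMatrix_apply, b, this]
      rw [← LinearMap.mem_ker, Submodule.ker_mkQ]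
      exact he (Submodule.coe_mem (bW k))
    | inr l =>
      simp only [LinearMap.toMatrix_apply, sumQuot_repr_inr,
        Matrix.fromBlocks_apply₂₂, b, D]
      rw [← sumQuot_inr bW bQ l, W.mapQ_apply]
      simp

end CharpolyQuot

/-- A representation with a basis permuted up to scalars gives a multiplicative family of
column-monomial matrices with the same traces and determinants. -/
theorem mono_matrix_of_basis {G : Type} [Group G] {V : Type} [AddCommGroup V] [Module ℂ V]
    [FiniteDimensional ℂ V] (ρ : G →* Module.End ℂ V) {κ : Type} [Fintype κ] [DecidableEq κ] (b : Basis κ ℂ V)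
    (hb : ∀ g k, ∃ (k' : κ) (c : ℂ), ρ g (b k) = c • b k') :
    ∃ ρ' : G →* Matrix κ κ ℂ,
      (∀ g j, ∃ i, ∀ i', i' ≠ i → ρ' g i' j = 0) ∧
      (∀ g, (ρ' g).trace = LinearMap.trace ℂ V (ρ g)) ∧
      (∀ g, (ρ' g).det = LinearMap.det (ρ g)) ∧
      (∀ g, (ρ' g).charpoly = LinearMap.charpoly (ρ g)) := by
  refine ⟨{ toFun := fun g => LinearMap.toMatrix b b (ρ g)
            map_one' := by rw [map_one]; exact LinearMap.toMatrix_one b
            map_mul' := fun g h => by rw [map_mul]; exact LinearMap.toMatrix_mul b _ _ },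
    ?_, ?_, ?_, ?_⟩
  · intro g j
    obtain ⟨k', c, hc⟩ := hb g j
    refine ⟨k', fun i' hi' => ?_⟩
    show LinearMap.toMatrix b b (ρ g) i' j = 0
    rw [LinearMap.toMatrix_apply, hc]
    simp [hi'.symm]
  · intro g
    exact (LinearMap.trace_eq_matrix_trace ℂ b (ρ g)).symm
  · intro g
    exact LinearMap.det_toMatrix b (ρ g)
  · intro g
    exact LinearMap.charpoly_toMatrix (ρ g) b

/-- Every finite-dimensional complex representation of a nilpotent group has the same traces
and determinants as a multiplicative family of column-monomial matrices. -/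
theorem exists_mono_matrix :
    ∀ (n : ℕ) (G : Type) [Group G] [Group.IsNilpotent G] (V : Type) [AddCommGroup V]
      [Module ℂ V] [FiniteDimensional ℂ V] (ρ : G →* Module.End ℂ V),
      Module.finrank ℂ V = n →
      ∃ (κ : Type) (_ : Fintype κ) (_ : DecidableEq κ) (ρ' : G →* Matrix κ κ ℂ),
        Fintype.card κ = n ∧ (∀ g j, ∃ i, ∀ i', i' ≠ i → ρ' g i' j = 0) ∧
        (∀ g, (ρ' g).trace = LinearMap.trace ℂ V (ρ g)) ∧
        (∀ g, (ρ' g).det = LinearMap.det (ρ g)) ∧
        (∀ g, (ρ' g).charpoly = LinearMap.charpoly (ρ g)) := by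
  classical
  intro n
  induction n using Nat.strong_induction_on with
  | _ n ih =>
    intro G _ _ V _ _ _ ρ hn
    by_cases hirr : ∀ W : Submodule ℂ V, IsInv ρ W → W = ⊥ ∨ W = ⊤
    · have hbasis : ∃ (κ : Type) (_ : Fintype κ) (b : Basis κ ℂ V),
          ∀ g k, ∃ (k' : κ) (c : ℂ), ρ g (b k) = c • b k' := by
        rcases subsingleton_or_nontrivial V with hV | hV
        · exact ⟨Fin (Module.finrank ℂ V), inferInstance, Module.finBasis ℂ V,
            fun g k => ⟨k, 0, Subsingleton.elim _ _⟩⟩
        · exact exists_mono_basis n G V ρ hn hirr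
      obtain ⟨κ, hκ, b, hb⟩ := hbasis
      obtain ⟨ρ', h1, h2, h3, h4⟩ := mono_matrix_of_basis ρ b hb
      exact ⟨κ, hκ, inferInstance, ρ', by rw [← hn, Module.finrank_eq_card_basis b], h1, h2, h3,
        h4⟩
    · push Not at hirr
      obtain ⟨W, hW, hbot, htop⟩ := hirr
      let ρ₁ : G →* Module.End ℂ W :=
        { toFun := fun g => (ρ g).restrict (hW g)
          map_one' := by
            apply LinearMap.ext
            intro w
            apply Subtype.ext
            simp
          map_mul' := fun g h => by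
            apply LinearMap.ext
            intro w
            apply Subtype.ext
            simp }
      let ρ₂ : G →* Module.End ℂ (V ⧸ W) :=
        { toFun := fun g => W.mapQ W (ρ g) (hW g)
          map_one' := by
            apply LinearMap.ext
            intro w
            induction w using Submodule.Quotient.induction_on with
            | _ v => simp
          map_mul' := fun g h => by
            apply LinearMap.ext
            intro w
            induction w using Submodule.Quotient.induction_on with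
            | _ v => simp }
      have hlt1 : Module.finrank ℂ W < n := hn ▸ Submodule.finrank_lt htop
      have hsum : Module.finrank ℂ (V ⧸ W) + Module.finrank ℂ W = n :=
        hn ▸ Submodule.finrank_quotient_add_finrank W
      have hpos : 0 < Module.finrank ℂ W := by
        have : Nontrivial W := Submodule.nontrivial_iff_ne_bot.mpr hbot
        exact Module.finrank_pos
      have hlt2 : Module.finrank ℂ (V ⧸ W) < n := by omega
      obtain ⟨κ₁, hκ₁, hd₁, ρ₁', hc₁, hm₁, ht₁, hdet₁, hch₁⟩ := ih _ hlt1 G W ρ₁ rfl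
      obtain ⟨κ₂, hκ₂, hd₂, ρ₂', hc₂, hm₂, ht₂, hdet₂, hch₂⟩ := ih _ hlt2 G (V ⧸ W) ρ₂ rfl
      refine ⟨κ₁ ⊕ κ₂, inferInstance, inferInstance,
        { toFun := fun g => Matrix.fromBlocks (ρ₁' g) 0 0 (ρ₂' g)
          map_one' := by rw [map_one, map_one]; exact Matrix.fromBlocks_one
          map_mul' := fun g h => by
            rw [map_mul, map_mul, Matrix.fromBlocks_multiply]
            simp }, ?_, ?_, ?_, ?_, ?_⟩
      · rw [Fintype.card_sum, hc₁, hc₂]
        omega
      · intro g j
        cases j with
        | inl j₁ =>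
          obtain ⟨i, hi⟩ := hm₁ g j₁
          refine ⟨Sum.inl i, fun i' hi' => ?_⟩
          cases i' with
          | inl a => exact hi a (fun h => hi' (by rw [h]))
          | inr a => rfl
        | inr j₂ =>
          obtain ⟨i, hi⟩ := hm₂ g j₂
          refine ⟨Sum.inr i, fun i' hi' => ?_⟩
          cases i' with
          | inl a => rfl
          | inr a => exact hi a (fun h => hi' (by rw [h]))
      · intro g
        show (Matrix.fromBlocks (ρ₁' g) 0 0 (ρ₂' g)).trace = _
        have h1 : (Matrix.fromBlocks (ρ₁' g) 0 0 (ρ₂' g)).trace =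
            (ρ₁' g).trace + (ρ₂' g).trace := by
          simp [Matrix.trace, Fintype.sum_sum_type]
        rw [h1, ht₁, ht₂, trace_eq_trace_restrict_add_trace_mapQ W (ρ g) (hW g)]
        rfl
      · intro g
        show (Matrix.fromBlocks (ρ₁' g) 0 0 (ρ₂' g)).det = _
        rw [Matrix.det_fromBlocks_zero₂₁, hdet₁, hdet₂,
          LinearMap.det_eq_det_mul_det W (ρ g) (hW g)]
        rfl
      · intro g
        show (Matrix.fromBlocks (ρ₁' g) 0 0 (ρ₂' g)).charpoly = _
        rw [Matrix.charpoly_fromBlocks_zero₂₁, hch₁, hch₂,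
          charpoly_eq_charpoly_restrict_mul_charpoly_mapQ W (ρ g) (hW g)]
        rfl

/-- Every representation of a nilpotent group into `SL_r(ℂ)` has the same traces as the
representation of some monomial data of determinant one. -/
theorem exists_monoData_of_nilpotent {Γ : Type} [Group Γ] [Group.IsNilpotent Γ] {r : ℕ}
    (ρ : Γ →* Matrix.SpecialLinearGroup (Fin r) ℂ) :
    ∃ (D : MonoData Γ (Fin r) ℂ) (_ : D.IsSL),
      (∀ γ, (D.mat γ).trace = (ρ γ : Matrix (Fin r) (Fin r) ℂ).trace) ∧
      (∀ γ, (D.mat γ).charpoly = (ρ γ : Matrix (Fin r) (Fin r) ℂ).charpoly) := by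
  classical
  let ρL : Γ →* Module.End ℂ (Fin r → ℂ) :=
    { toFun := fun g => Matrix.toLin' (ρ g : Matrix (Fin r) (Fin r) ℂ)
      map_one' := by
        rw [map_one, Matrix.SpecialLinearGroup.coe_one, Matrix.toLin'_one]
        rfl
      map_mul' := fun g h => by
        rw [map_mul, Matrix.SpecialLinearGroup.coe_mul, Matrix.toLin'_mul]
        rfl }
  obtain ⟨κ, hκ, hd, ρ', hc, hm, ht, hdet, hch⟩ :=
    exists_mono_matrix r Γ (Fin r → ℂ) ρL (by simp)
  have hc' : Fintype.card κ = Fintype.card (Fin r) := by rw [hc, Fintype.card_fin]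
  let e : κ ≃ Fin r := Fintype.equivOfCardEq hc'
  let ρ'' : Γ →* Matrix (Fin r) (Fin r) ℂ :=
    { toFun := fun g => (ρ' g).submatrix e.symm e.symm
      map_one' := by rw [map_one]; exact Matrix.submatrix_one_equiv e.symm
      map_mul' := fun g h => by
        rw [map_mul]
        exact (Matrix.submatrix_mul_equiv (ρ' g) (ρ' h) e.symm e.symm e.symm).symm }
  have hmono : ∀ γ j, ∃ i, ∀ i', i' ≠ i → ρ'' γ i' j = 0 := by
    intro γ j
    obtain ⟨i₀, hi₀⟩ := hm γ (e.symm j)
    refine ⟨e i₀, fun i' hi' => ?_⟩
    show ρ' γ (e.symm i') (e.symm j) = 0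
    apply hi₀
    intro h
    apply hi'
    rw [← h, Equiv.apply_symm_apply]
  obtain ⟨D, hD⟩ := exists_monoData_of_cols ρ'' hmono
  have hdet' : ∀ γ, (D.mat γ).det = 1 := by
    intro γ
    rw [hD γ]
    show ((ρ' γ).submatrix e.symm e.symm).det = 1
    rw [Matrix.det_submatrix_equiv_self, hdet γ]
    show LinearMap.det (Matrix.toLin' (ρ γ : Matrix (Fin r) (Fin r) ℂ)) = 1
    rw [LinearMap.det_toLin']
    exact (ρ γ).2
  refine ⟨D, ?_, ?_, ?_⟩
  · intro γ
    apply Units.ext
    rw [← MonoData.det_mat, hdet' γ, Units.val_one]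
  · intro γ
    rw [hD γ]
    show ((ρ' γ).submatrix e.symm e.symm).trace = _
    have h1 : ((ρ' γ).submatrix e.symm e.symm).trace = (ρ' γ).trace := by
      unfold Matrix.trace
      simp only [Matrix.diag_apply, Matrix.submatrix_apply]
      exact Equiv.sum_comp e.symm (fun i => ρ' γ i i)
    rw [h1, ht γ]
    show LinearMap.trace ℂ (Fin r → ℂ) (Matrix.toLin' (ρ γ : Matrix (Fin r) (Fin r) ℂ)) = _
    rw [Matrix.trace_toLin'_eq]
  · intro γ
    rw [hD γ]
    show (Matrix.reindex e e (ρ' γ)).charpoly = _
    rw [Matrix.charpoly_reindex, hch γ]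
    show LinearMap.charpoly (Matrix.toLin' (ρ γ : Matrix (Fin r) (Fin r) ℂ)) = _
    rw [Matrix.charpoly_toLin']

end Vale.Agent.H1.P002
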