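import Mathlib
import Vale.Agent.H1.P002.Nilp

/-!
Clifford theory for monomial representations: an irreducible finite-dimensional complex
representation whose image has a commutative normal subgroup with nilpotent quotient is monomial.
-/

namespace Vale.Agent.H1.P002

open Module

/-- The induction step: an irreducible representation with a system of imprimitivity is
monomial as soon as the representation of the stabiliser of a block on that block is. -/
theorem mono_basis_step {G : Type} [Group G] {V : Type} [AddCommGroup V] [Module ℂ V]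
    [FiniteDimensional ℂ V] (ρ : G →* Module.End ℂ V)
    (hirr : ∀ W : Submodule ℂ V, IsInv ρ W → W = ⊥ ∨ W = ⊤)
    {Ω : Type} (act : G → Ω → Ω) (hact1 : ∀ ω, act 1 ω = ω)
    (hactmul : ∀ g h ω, act (g * h) ω = act g (act h ω))
    (E : Ω → Submodule ℂ V) (hind : iSupIndep E)
    (hmap : ∀ g ω v, v ∈ E ω → ρ g v ∈ E (act g ω))
    (ω₀ : Ω) (hne : E ω₀ ≠ ⊥)
    (S : Subgroup G) (hS : ∀ g, g ∈ S ↔ act g ω₀ = ω₀)
    (ρS : S →* Module.End ℂ (E ω₀))
    (hρS : ∀ (s : S) (v : E ω₀), ((ρS s v : E ω₀) : V) = ρ s v)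
    (IH : (∀ U : Submodule ℂ (E ω₀), IsInv ρS U → U = ⊥ ∨ U = ⊤) →
      ∃ (κ : Type) (_ : Fintype κ) (b : Basis κ ℂ (E ω₀)),
        ∀ s k, ∃ (k' : κ) (c : ℂ), ρS s (b k) = c • b k') :
    ∃ (κ : Type) (_ : Fintype κ) (b : Basis κ ℂ V),
      ∀ g k, ∃ (k' : κ) (c : ℂ), ρ g (b k) = c • b k' := by
  classical
  have hactinv : ∀ g ω, act g⁻¹ (act g ω) = ω := by
    intro g ω
    rw [← hactmul, inv_mul_cancel, hact1]
  have hWinv : IsInv ρ (⨆ ω : Ω, E ω) := by
    intro g
    rw [← Submodule.map_le_iff_le_comap, Submodule.map_iSup]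
    apply iSup_le
    intro ω
    rintro _ ⟨v, hv, rfl⟩
    exact Submodule.mem_iSup_of_mem (act g ω) (hmap g ω v hv)
  have hWtop : (⨆ ω : Ω, E ω) = ⊤ := by
    refine (hirr _ hWinv).resolve_left (fun h => hne ?_)
    rw [eq_bot_iff, ← h]
    exact le_iSup E ω₀
  have hirrS : ∀ U : Submodule ℂ (E ω₀), IsInv ρS U → U = ⊥ ∨ U = ⊤ := by
    intro U hU
    by_cases hU0 : U = ⊥
    · exact Or.inl hU0
    right
    have hU'E : U.map (E ω₀).subtype ≤ E ω₀ := by
      rintro _ ⟨u, _, rfl⟩
      exact u.2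
    have hU'ne : U.map (E ω₀).subtype ≠ ⊥ := by
      intro h
      apply hU0
      rw [eq_bot_iff]
      intro u hu
      have h1 : (E ω₀).subtype u ∈ U.map (E ω₀).subtype := ⟨u, hu, rfl⟩
      rw [h, Submodule.mem_bot] at h1
      rw [Submodule.mem_bot]
      exact Subtype.ext h1
    have hW'inv : IsInv ρ (⨆ g : G, (U.map (E ω₀).subtype).map (ρ g)) := by
      intro h
      rw [← Submodule.map_le_iff_le_comap, Submodule.map_iSup]
      apply iSup_le
      intro g
      rw [← Submodule.map_comp]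
      have h1 : (ρ h).comp (ρ g) = ρ (h * g) := by rw [map_mul]; rfl
      rw [h1]
      exact le_iSup (fun g => (U.map (E ω₀).subtype).map (ρ g)) (h * g)
    have hW'ne : (⨆ g : G, (U.map (E ω₀).subtype).map (ρ g)) ≠ ⊥ := by
      intro h
      apply hU'ne
      rw [eq_bot_iff, ← h]
      refine le_trans ?_ (le_iSup (fun g => (U.map (E ω₀).subtype).map (ρ g)) 1)
      rw [map_one]
      intro v hv
      exact ⟨v, hv, rfl⟩
    have hW'top := (hirr _ hW'inv).resolve_left hW'ne
    have hW'le : (⨆ g : G, (U.map (E ω₀).subtype).map (ρ g)) ≤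
        U.map (E ω₀).subtype ⊔ ⨆ (ω : Ω) (_ : ω ≠ ω₀), E ω := by
      apply iSup_le
      intro g
      by_cases hg : act g ω₀ = ω₀
      · refine le_trans ?_ le_sup_left
        rintro _ ⟨_, ⟨u, hu, rfl⟩, rfl⟩
        refine ⟨ρS ⟨g, (hS g).mpr hg⟩ u, hU ⟨g, (hS g).mpr hg⟩ hu, ?_⟩
        exact hρS ⟨g, (hS g).mpr hg⟩ u
      · refine le_trans ?_ le_sup_right
        refine le_trans ?_ (le_iSup₂ (f := fun (ω : Ω) (_ : ω ≠ ω₀) => E ω) (act g ω₀) hg)
        rintro _ ⟨v, hv, rfl⟩
        exact hmap g ω₀ v (hU'E hv)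
    have hdisj : Disjoint (E ω₀) (⨆ (ω : Ω) (_ : ω ≠ ω₀), E ω) := hind ω₀
    have hEU : E ω₀ ≤ U.map (E ω₀).subtype := by
      have h1 : E ω₀ ≤ (U.map (E ω₀).subtype ⊔ ⨆ (ω : Ω) (_ : ω ≠ ω₀), E ω) ⊓ E ω₀ := by
        refine le_inf ?_ le_rfl
        refine le_trans ?_ hW'le
        rw [hW'top]
        exact le_top
      rw [sup_inf_assoc_of_le _ hU'E, inf_comm, disjoint_iff.mp hdisj, sup_bot_eq] at h1
      exact h1
    rw [eq_top_iff]
    intro u _
    obtain ⟨u', hu', hu'eq⟩ := hEU u.2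
    have : u' = u := Subtype.ext hu'eq
    rw [← this]
    exact hu'
  obtain ⟨κ, hκ, b', hb'⟩ := IH hirrS
  have hsup : (⨆ g : G, (E ω₀).map (ρ g)) = ⊤ := by
    refine (hirr _ ?_).resolve_left ?_
    · intro h
      rw [← Submodule.map_le_iff_le_comap, Submodule.map_iSup]
      apply iSup_le
      intro g
      rw [← Submodule.map_comp]
      have h1 : (ρ h).comp (ρ g) = ρ (h * g) := by rw [map_mul]; rfl
      rw [h1]
      exact le_iSup (fun g => (E ω₀).map (ρ g)) (h * g)
    · intro h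
      apply hne
      rw [eq_bot_iff, ← h]
      refine le_trans ?_ (le_iSup (fun g => (E ω₀).map (ρ g)) 1)
      rw [map_one]
      intro v hv
      exact ⟨v, hv, rfl⟩
  have hmapE : ∀ g, (E ω₀).map (ρ g) ≤ E (act g ω₀) := by
    rintro g _ ⟨v, hv, rfl⟩
    exact hmap g ω₀ v hv
  have htrans : ∀ ω : Ω, E ω ≠ ⊥ → ∃ g, act g ω₀ = ω := by
    intro ω hω
    by_contra hcon
    push Not at hcon
    apply hω
    have hd : Disjoint (E ω) (⨆ (ν : Ω) (_ : ν ≠ ω), E ν) := hind ω
    have hle : (⊤ : Submodule ℂ V) ≤ ⨆ (ν : Ω) (_ : ν ≠ ω), E ν := by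
      rw [← hsup]
      apply iSup_le
      intro g
      exact le_trans (hmapE g) (le_iSup₂ (f := fun (ν : Ω) (_ : ν ≠ ω) => E ν)
        (act g ω₀) (hcon g))
    exact disjoint_top.mp (hd.mono_right hle)
  have hfinset : {ω : Ω | E ω ≠ ⊥}.Finite := WellFoundedGT.finite_ne_bot_of_iSupIndep hind
  let _ : Fintype {ω : Ω // E ω ≠ ⊥} := hfinset.fintype
  have hsel : ∀ ω : {ω : Ω // E ω ≠ ⊥}, ∃ g, act g ω₀ = (ω : Ω) := fun ω => htrans ω.1 ω.2
  choose gsel hgsel using hsel
  let ε : ∀ ω : {ω : Ω // E ω ≠ ⊥}, E ω₀ ≃ₗ[ℂ] E (ω : Ω) := fun ω =>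
    repEquiv ρ (gsel ω) _ _
      (fun v hv => by
        have h1 := hmap (gsel ω) ω₀ v hv
        rw [hgsel ω] at h1
        exact h1)
      (fun v hv => by
        have h1 := hmap (gsel ω)⁻¹ (ω : Ω) v hv
        rw [← hgsel ω, hactinv] at h1
        exact h1)
  have hind' : iSupIndep (fun ω : {ω : Ω // E ω ≠ ⊥} => E (ω : Ω)) :=
    hind.comp Subtype.val_injective
  have hsupE : (⨆ ω : {ω : Ω // E ω ≠ ⊥}, E (ω : Ω)) = ⊤ := by
    rw [eq_top_iff, ← hWtop]
    apply iSup_le
    intro ω
    by_cases hω : E ω = ⊥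
    · rw [hω]
      exact bot_le
    · exact le_iSup (fun ω : {ω : Ω // E ω ≠ ⊥} => E (ω : Ω)) ⟨ω, hω⟩
  have hInt := DirectSum.isInternal_submodule_of_iSupIndep_of_iSup_eq_top hind' hsupE
  have hB : ∀ (ω : {ω : Ω // E ω ≠ ⊥}) (k : κ),
      hInt.collectedBasis (fun ω => b'.map (ε ω)) ⟨ω, k⟩ = ρ (gsel ω) (b' k : V) := by
    intro ω k
    rw [hInt.collectedBasis_coe]
    rfl
  refine ⟨Σ _ : {ω : Ω // E ω ≠ ⊥}, κ, inferInstance,
    hInt.collectedBasis (fun ω => b'.map (ε ω)), ?_⟩
  rintro g ⟨ω, k⟩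
  have hne0 : ρ g (ρ (gsel ω) (b' k : V)) ≠ 0 := by
    intro h0
    have h1 : ρ (gsel ω) (b' k : V) = 0 := rep_injective ρ g (by rw [h0, map_zero])
    have h2 : (b' k : V) = 0 := rep_injective ρ (gsel ω) (by rw [h1, map_zero])
    exact b'.ne_zero k (Subtype.ext h2)
  have hmem : ρ g (ρ (gsel ω) (b' k : V)) ∈ E (act g (ω : Ω)) := by
    apply hmap g
    have h1 := hmap (gsel ω) ω₀ _ (b' k).2
    rw [hgsel ω] at h1
    exact h1
  have hω' : E (act g (ω : Ω)) ≠ ⊥ := by
    intro h
    rw [h, Submodule.mem_bot] at hmem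
    exact hne0 hmem
  obtain ⟨ω', hω'val⟩ : ∃ ω' : {ω : Ω // E ω ≠ ⊥}, (ω' : Ω) = act g (ω : Ω) :=
    ⟨⟨_, hω'⟩, rfl⟩
  have hs : (gsel ω')⁻¹ * g * gsel ω ∈ S := by
    rw [hS, hactmul, hactmul, hgsel ω, ← hω'val, ← hgsel ω', hactinv]
  obtain ⟨k', c, hk'⟩ := hb' ⟨_, hs⟩ k
  refine ⟨⟨ω', k'⟩, c, ?_⟩
  rw [hB ω k, hB ω' k']
  have h1 : ρ g (ρ (gsel ω) (b' k : V)) = ρ (gsel ω')
      (ρ ((gsel ω')⁻¹ * g * gsel ω) (b' k : V)) := by
    have h2 : ρ g * ρ (gsel ω) = ρ (gsel ω') * ρ ((gsel ω')⁻¹ * g * gsel ω) := by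
      rw [← map_mul, ← map_mul]
      congr 1
      group
    exact congrArg (fun T : Module.End ℂ V => T (b' k : V)) h2
  have h3 : ρ ((gsel ω')⁻¹ * g * gsel ω) (b' k : V) = c • (b' k' : V) := by
    have h4 := congrArg Subtype.val hk'
    rw [hρS] at h4
    exact h4
  rw [h1, h3, map_smul]

/-- Some term of a descending chain of subgroups of `G`, obtained from `G` by successive
commutators, is stable under conjugation and acts through commuting operators. -/
def HasAbChain {G : Type} [Group G] {V : Type} [AddCommGroup V] [Module ℂ V]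
    (ρ : G →* Module.End ℂ V) : Prop :=
  ∃ (m : ℕ) (H : ℕ → Subgroup G), H 0 = ⊤ ∧
    (∀ i x g, x ∈ H i → x * g * x⁻¹ * g⁻¹ ∈ H (i + 1)) ∧
    (∀ a ∈ H m, ∀ g, g * a * g⁻¹ ∈ H m) ∧
    (∀ a ∈ H m, ∀ b ∈ H m, Commute (ρ a) (ρ b))

theorem exists_comm_conj {G : Type} [Group G] {V : Type} [AddCommGroup V] [Module ℂ V]
    (ρ : G →* Module.End ℂ V) (hρ : HasAbChain ρ) (g₀ : G) (hg₀ : ∀ c : ℂ, ρ g₀ ≠ c • 1) :
    ∃ x : G, (∀ c : ℂ, ρ x ≠ c • 1) ∧
      ∀ h h' : G, Commute (ρ (h * x * h⁻¹)) (ρ (h' * x * h'⁻¹)) := by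
  obtain ⟨m, H, hH0, hcomm, hnorm, hab⟩ := hρ
  by_cases hcase : ∃ a ∈ H m, ∀ c : ℂ, ρ a ≠ c • 1
  · obtain ⟨a, ha, hane⟩ := hcase
    exact ⟨a, hane, fun h h' => hab _ (hnorm a ha h) _ (hnorm a ha h')⟩
  · push Not at hcase
    have key : ∀ d i, i + d = m → ∀ x ∈ H i, (∀ c : ℂ, ρ x ≠ c • 1) →
        ∃ x' : G, (∀ c : ℂ, ρ x' ≠ c • 1) ∧
          ∀ g, ∃ c : ℂ, ρ (x' * g * x'⁻¹ * g⁻¹) = c • 1 := by
      intro d
      induction d with
      | zero =>
        intro i hi x hx hxne
        rw [add_zero] at hi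
        subst hi
        obtain ⟨c, hc⟩ := hcase x hx
        exact absurd hc (hxne c)
      | succ d ih =>
        intro i hi x hx hxne
        by_cases hall : ∀ g, ∃ c : ℂ, ρ (x * g * x⁻¹ * g⁻¹) = c • 1
        · exact ⟨x, hxne, hall⟩
        · push Not at hall
          obtain ⟨g, hg⟩ := hall
          exact ih (i + 1) (by omega) _ (hcomm i x g hx) hg
    obtain ⟨x, hxne, hx⟩ := key m 0 (by omega) g₀ (by rw [hH0]; trivial) hg₀
    refine ⟨x, hxne, ?_⟩
    let Z : G → Module.End ℂ V := fun h => ρ ((x * h * x⁻¹ * h⁻¹)⁻¹)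
    have hcentral : ∀ (h : G) (A : Module.End ℂ V), Z h * A = A * Z h := by
      intro h A
      obtain ⟨c, hc⟩ := hx h
      have hT : ∀ B : Module.End ℂ V,
          ρ (x * h * x⁻¹ * h⁻¹) * B = B * ρ (x * h * x⁻¹ * h⁻¹) := by
        intro B
        rw [hc, smul_mul_assoc, mul_smul_comm, one_mul, mul_one]
      have h1 : Z h * ρ (x * h * x⁻¹ * h⁻¹) = 1 := rep_inv_mul ρ _
      have h2 : ρ (x * h * x⁻¹ * h⁻¹) * Z h = 1 := rep_mul_inv ρ _
      calc Z h * A = Z h * A * (ρ (x * h * x⁻¹ * h⁻¹) * Z h) := by rw [h2, mul_one]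
        _ = Z h * (A * ρ (x * h * x⁻¹ * h⁻¹)) * Z h := by simp only [mul_assoc]
        _ = Z h * (ρ (x * h * x⁻¹ * h⁻¹) * A) * Z h := by rw [hT A]
        _ = (Z h * ρ (x * h * x⁻¹ * h⁻¹)) * A * Z h := by simp only [mul_assoc]
        _ = A * Z h := by rw [h1, one_mul]
    have hconj : ∀ h : G, ρ (h * x * h⁻¹) = Z h * ρ x := by
      intro h
      show ρ (h * x * h⁻¹) = ρ ((x * h * x⁻¹ * h⁻¹)⁻¹) * ρ x
      rw [← map_mul]
      congr 1
      group
    intro h h'
    rw [hconj h, hconj h']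
    show Z h * ρ x * (Z h' * ρ x) = Z h' * ρ x * (Z h * ρ x)
    calc Z h * ρ x * (Z h' * ρ x) = Z h * (ρ x * Z h') * ρ x := by simp only [mul_assoc]
      _ = Z h * (Z h' * ρ x) * ρ x := by rw [hcentral h' (ρ x)]
      _ = (Z h * Z h') * ρ x * ρ x := by simp only [mul_assoc]
      _ = (Z h' * Z h) * ρ x * ρ x := by rw [hcentral h (Z h')]
      _ = Z h' * (Z h * ρ x) * ρ x := by simp only [mul_assoc]
      _ = Z h' * (ρ x * Z h) * ρ x := by rw [hcentral h (ρ x)]
      _ = Z h' * ρ x * (Z h * ρ x) := by simp only [mul_assoc]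

theorem exists_weight_system {G : Type} [Group G] {V : Type} [AddCommGroup V] [Module ℂ V]
    [FiniteDimensional ℂ V] [Nontrivial V] (ρ : G →* Module.End ℂ V) (x : G)
    (hx : ∀ c : ℂ, ρ x ≠ c • 1)
    (hcomm : ∀ h h' : G, Commute (ρ (h * x * h⁻¹)) (ρ (h' * x * h'⁻¹))) :
    ∃ (E : (G → ℂ) → Submodule ℂ V) (χ₀ : G → ℂ), iSupIndep E ∧
      (∀ g χ v, v ∈ E χ → ρ g v ∈ E (fun h => χ (g⁻¹ * h))) ∧ E χ₀ ≠ ⊥ ∧ E χ₀ ≠ ⊤ := by
  classical
  let f : G → Module.End ℂ V := fun h => ρ (h * x * h⁻¹)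
  let E : (G → ℂ) → Submodule ℂ V := fun χ => ⨅ h, Module.End.eigenspace (f h) (χ h)
  have hE : ∀ χ v, v ∈ E χ ↔ ∀ h, f h v = χ h • v := by
    intro χ v
    simp only [E, Submodule.mem_iInf, Module.End.mem_eigenspace_iff]
  obtain ⟨v₀, hv₀, χ₀, hχ₀⟩ := exists_common_eigenvector (finrank ℂ V) V f rfl hcomm
  refine ⟨E, χ₀, ?_, ?_, ?_, ?_⟩
  · have h1 : iSupIndep fun χ : G → ℂ => ⨅ h, (f h).maxGenEigenspace (χ h) :=
      Module.End.independent_iInf_maxGenEigenspace_of_forall_mapsTo f
        (fun i j φ => Module.End.mapsTo_maxGenEigenspace_of_comm (hcomm j i) φ)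
    apply h1.mono
    intro χ
    exact iInf_mono fun h => Module.End.eigenspace_le_maxGenEigenspace
  · intro g χ v hv
    rw [hE] at hv ⊢
    intro h
    have h1 : f h * ρ g = ρ g * f (g⁻¹ * h) := by
      show ρ (h * x * h⁻¹) * ρ g = ρ g * ρ (g⁻¹ * h * x * (g⁻¹ * h)⁻¹)
      rw [← map_mul, ← map_mul]
      congr 1
      group
    have h2 := congrArg (fun T : Module.End ℂ V => T v) h1
    simp only [Module.End.mul_apply] at h2
    rw [h2, hv (g⁻¹ * h), map_smul]
  · intro h
    have h1 : v₀ ∈ E χ₀ := (hE χ₀ v₀).mpr hχ₀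
    rw [h, Submodule.mem_bot] at h1
    exact hv₀ h1
  · intro htop
    apply hx (χ₀ 1)
    ext v
    have hv : v ∈ E χ₀ := by rw [htop]; trivial
    have h1 := (hE χ₀ v).mp hv 1
    simp only [f, one_mul, inv_one, mul_one] at h1
    simpa using h1

/-- An irreducible finite-dimensional complex representation whose image is
abelian-by-nilpotent has a basis that is permuted up to scalars by the group. -/
theorem exists_mono_basis_of_abChain :
    ∀ (n : ℕ) (G : Type) [Group G] (V : Type) [AddCommGroup V]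
      [Module ℂ V] [FiniteDimensional ℂ V] (ρ : G →* Module.End ℂ V),
      Module.finrank ℂ V = n → (∀ W : Submodule ℂ V, IsInv ρ W → W = ⊥ ∨ W = ⊤) →
      HasAbChain ρ →
      ∃ (κ : Type) (_ : Fintype κ) (b : Basis κ ℂ V),
        ∀ g k, ∃ (k' : κ) (c : ℂ), ρ g (b k) = c • b k' := by
  classical
  intro n
  induction n using Nat.strong_induction_on with
  | _ n ih =>
    intro G _ V _ _ _ ρ hn hirr hab
    by_cases hs : ∀ g, ∃ c : ℂ, ρ g = c • 1
    · refine ⟨Fin (Module.finrank ℂ V), inferInstance, Module.finBasis ℂ V, fun g k => ?_⟩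
      obtain ⟨c, hc⟩ := hs g
      exact ⟨k, c, by rw [hc]; simp⟩
    · push Not at hs
      obtain ⟨g₀, hg₀⟩ := hs
      have hnt : Nontrivial V := by
        by_contra hcon
        rw [not_nontrivial_iff_subsingleton] at hcon
        apply hg₀ 0
        ext v
        exact Subsingleton.elim _ _
      obtain ⟨x, hx, hcomm⟩ := exists_comm_conj ρ hab g₀ hg₀
      obtain ⟨E, χ₀, hind, hmap, hne, hntop⟩ := exists_weight_system ρ x hx hcomm
      let act : G → (G → ℂ) → (G → ℂ) := fun g χ h => χ (g⁻¹ * h)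
      have hact1 : ∀ χ, act 1 χ = χ := by
        intro χ
        funext h
        show χ (1⁻¹ * h) = χ h
        rw [inv_one, one_mul]
      have hactmul : ∀ g h χ, act (g * h) χ = act g (act h χ) := by
        intro g h χ
        funext k
        show χ ((g * h)⁻¹ * k) = χ (h⁻¹ * (g⁻¹ * k))
        rw [mul_inv_rev, mul_assoc]
      let S : Subgroup G :=
        { carrier := {g | act g χ₀ = χ₀}
          mul_mem' := by
            intro a b ha hb
            show act (a * b) χ₀ = χ₀
            rw [hactmul, show act b χ₀ = χ₀ from hb, show act a χ₀ = χ₀ from ha]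
          one_mem' := hact1 χ₀
          inv_mem' := by
            intro a ha
            show act a⁻¹ χ₀ = χ₀
            have h1 : act a⁻¹ (act a χ₀) = χ₀ := by
              rw [← hactmul, inv_mul_cancel, hact1]
            rw [show act a χ₀ = χ₀ from ha] at h1
            exact h1 }
      have hSE : ∀ s : S, ∀ v ∈ E χ₀, ρ s v ∈ E χ₀ := by
        intro s v hv
        have h1 := hmap s χ₀ v hv
        have h2 : (fun h => χ₀ ((s : G)⁻¹ * h)) = χ₀ := s.2
        rw [h2] at h1
        exact h1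
      let ρS : S →* Module.End ℂ (E χ₀) :=
        { toFun := fun s => (ρ s).restrict (hSE s)
          map_one' := by
            apply LinearMap.ext
            intro v
            apply Subtype.ext
            show ρ ((1 : S) : G) v = v
            simp
          map_mul' := by
            intro a b
            apply LinearMap.ext
            intro v
            apply Subtype.ext
            show ρ ((a * b : S) : G) v = ρ a (ρ b v)
            simp }
      have hlt : Module.finrank ℂ (E χ₀) < n := hn ▸ Submodule.finrank_lt hntop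
      have habS : HasAbChain ρS := by
        obtain ⟨m, H, hH0, hc, hnorm, hcm⟩ := hab
        refine ⟨m, fun i => (H i).subgroupOf S, ?_, ?_, ?_, ?_⟩
        · show (H 0).subgroupOf S = ⊤
          rw [hH0]
          exact Subgroup.top_subgroupOf S
        · intro i y g hy
          rw [Subgroup.mem_subgroupOf] at hy ⊢
          exact hc i y g hy
        · intro a ha g
          rw [Subgroup.mem_subgroupOf] at ha ⊢
          exact hnorm a ha g
        · intro a ha b hb
          rw [Subgroup.mem_subgroupOf] at ha hb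
          have h1 := (hcm a ha b hb).eq
          show ρS a * ρS b = ρS b * ρS a
          apply LinearMap.ext
          intro v
          apply Subtype.ext
          show ρ a (ρ b v) = ρ b (ρ a v)
          have h2 := congrArg (fun T : Module.End ℂ V => T (v : V)) h1
          simpa using h2
      exact mono_basis_step ρ hirr act hact1 hactmul E hind hmap χ₀ hne S (fun g => Iff.rfl) ρS
        (fun s v => rfl) (fun hirrS => ih _ hlt S (E χ₀) ρS rfl hirrS habS)

theorem hasAbChain_of_lcs {Γ : Type} [Group Γ] {V : Type} [AddCommGroup V] [Module ℂ V]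
    (ρ : Γ →* Module.End ℂ V)
    (h : ∃ m, ∀ a ∈ (⊤ : Subgroup Γ).lowerCentralSeries m,
      ∀ b ∈ (⊤ : Subgroup Γ).lowerCentralSeries m, a * b = b * a) : HasAbChain ρ := by
  obtain ⟨m, hm⟩ := h
  refine ⟨m, fun i => (⊤ : Subgroup Γ).lowerCentralSeries i, rfl, ?_, ?_, ?_⟩
  · intro i x g hx
    show x * g * x⁻¹ * g⁻¹ ∈ (⊤ : Subgroup Γ).lowerCentralSeries (i + 1)
    rw [Subgroup.lowerCentralSeries_succ]
    have h1 := Subgroup.commutator_mem_commutator
      (show x ∈ (⊤ : Subgroup Γ).lowerCentralSeries i from hx) (Subgroup.mem_top g)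
    rwa [commutatorElement_def] at h1
  · intro a ha g
    exact (Subgroup.lowerCentralSeries_normal ⊤ m).conj_mem a ha g
  · intro a ha b hb
    show ρ a * ρ b = ρ b * ρ a
    rw [← map_mul, ← map_mul, hm a ha b hb]

/-- Every finite-dimensional complex representation with abelian-by-nilpotent image has the same
traces, determinants and characteristic polynomials as a multiplicative family of
column-monomial matrices. -/
theorem exists_mono_matrix_of_abChain :
    ∀ (n : ℕ) (G : Type) [Group G] (V : Type) [AddCommGroup V]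
      [Module ℂ V] [FiniteDimensional ℂ V] (ρ : G →* Module.End ℂ V),
      Module.finrank ℂ V = n → HasAbChain ρ →
      ∃ (κ : Type) (_ : Fintype κ) (_ : DecidableEq κ) (ρ' : G →* Matrix κ κ ℂ),
        Fintype.card κ = n ∧ (∀ g j, ∃ i, ∀ i', i' ≠ i → ρ' g i' j = 0) ∧
        (∀ g, (ρ' g).trace = LinearMap.trace ℂ V (ρ g)) ∧
        (∀ g, (ρ' g).det = LinearMap.det (ρ g)) ∧
        (∀ g, (ρ' g).charpoly = LinearMap.charpoly (ρ g)) := by
  classical
  intro n
  induction n using Nat.strong_induction_on with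
  | _ n ih =>
    intro G _ V _ _ _ ρ hn hab
    by_cases hirr : ∀ W : Submodule ℂ V, IsInv ρ W → W = ⊥ ∨ W = ⊤
    · have hbasis : ∃ (κ : Type) (_ : Fintype κ) (b : Basis κ ℂ V),
          ∀ g k, ∃ (k' : κ) (c : ℂ), ρ g (b k) = c • b k' := by
        exact exists_mono_basis_of_abChain n G V ρ hn hirr hab
      obtain ⟨κ, hκ, b, hb⟩ := hbasis
      obtain ⟨ρ', h1, h2, h3, h4⟩ := mono_matrix_of_basis ρ b hb
      exact ⟨κ, hκ, inferInstance, ρ', by rw [← hn, Module.finrank_eq_card_basis b], h1, h2, h3,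
        h4⟩
    · push Not at hirr
      obtain ⟨W, hW, hbot, htop⟩ := hirr
      let ρ₁ : G →* Module.End ℂ W :=
        { toFun := fun g => (ρ g).restrict (hW g)
          map_one' := by
            apply LinearMap.ext
            intro w
            apply Subtype.ext
            simp
          map_mul' := fun g h => by
            apply LinearMap.ext
            intro w
            apply Subtype.ext
            simp }
      let ρ₂ : G →* Module.End ℂ (V ⧸ W) :=
        { toFun := fun g => W.mapQ W (ρ g) (hW g)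
          map_one' := by
            apply LinearMap.ext
            intro w
            induction w using Submodule.Quotient.induction_on with
            | _ v => simp
          map_mul' := fun g h => by
            apply LinearMap.ext
            intro w
            induction w using Submodule.Quotient.induction_on with
            | _ v => simp }
      have hlt1 : Module.finrank ℂ W < n := hn ▸ Submodule.finrank_lt htop
      have hsum : Module.finrank ℂ (V ⧸ W) + Module.finrank ℂ W = n :=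
        hn ▸ Submodule.finrank_quotient_add_finrank W
      have hpos : 0 < Module.finrank ℂ W := by
        have : Nontrivial W := Submodule.nontrivial_iff_ne_bot.mpr hbot
        exact Module.finrank_pos
      have hlt2 : Module.finrank ℂ (V ⧸ W) < n := by omega
      have hab₁ : HasAbChain ρ₁ := by
        obtain ⟨m, H, hH0, hc, hnorm, hcm⟩ := hab
        refine ⟨m, H, hH0, hc, hnorm, fun a ha b hb => ?_⟩
        have h1 := (hcm a ha b hb).eq
        show ρ₁ a * ρ₁ b = ρ₁ b * ρ₁ a
        apply LinearMap.ext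
        intro w
        apply Subtype.ext
        show ρ a (ρ b w) = ρ b (ρ a w)
        have h2 := congrArg (fun T : Module.End ℂ V => T (w : V)) h1
        simpa using h2
      have hab₂ : HasAbChain ρ₂ := by
        obtain ⟨m, H, hH0, hc, hnorm, hcm⟩ := hab
        refine ⟨m, H, hH0, hc, hnorm, fun a ha b hb => ?_⟩
        have h1 := (hcm a ha b hb).eq
        show ρ₂ a * ρ₂ b = ρ₂ b * ρ₂ a
        apply LinearMap.ext
        intro w
        induction w using Submodule.Quotient.induction_on with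
        | _ v =>
          show W.mapQ W (ρ a) (hW a) (W.mapQ W (ρ b) (hW b) (Submodule.Quotient.mk v)) =
            W.mapQ W (ρ b) (hW b) (W.mapQ W (ρ a) (hW a) (Submodule.Quotient.mk v))
          rw [Submodule.mapQ_apply, Submodule.mapQ_apply, Submodule.mapQ_apply,
            Submodule.mapQ_apply]
          have h2 := congrArg (fun T : Module.End ℂ V => T v) h1
          simp only [Module.End.mul_apply] at h2
          rw [h2]
      obtain ⟨κ₁, hκ₁, hd₁, ρ₁', hc₁, hm₁, ht₁, hdet₁, hch₁⟩ := ih _ hlt1 G W ρ₁ rfl hab₁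
      obtain ⟨κ₂, hκ₂, hd₂, ρ₂', hc₂, hm₂, ht₂, hdet₂, hch₂⟩ :=
        ih _ hlt2 G (V ⧸ W) ρ₂ rfl hab₂
      refine ⟨κ₁ ⊕ κ₂, inferInstance, inferInstance,
        { toFun := fun g => Matrix.fromBlocks (ρ₁' g) 0 0 (ρ₂' g)
          map_one' := by rw [map_one, map_one]; exact Matrix.fromBlocks_one
          map_mul' := fun g h => by
            rw [map_mul, map_mul, Matrix.fromBlocks_multiply]
            simp }, ?_, ?_, ?_, ?_, ?_⟩
      · rw [Fintype.card_sum, hc₁, hc₂]
        omega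
      · intro g j
        cases j with
        | inl j₁ =>
          obtain ⟨i, hi⟩ := hm₁ g j₁
          refine ⟨Sum.inl i, fun i' hi' => ?_⟩
          cases i' with
          | inl a => exact hi a (fun h => hi' (by rw [h]))
          | inr a => rfl
        | inr j₂ =>
          obtain ⟨i, hi⟩ := hm₂ g j₂
          refine ⟨Sum.inr i, fun i' hi' => ?_⟩
          cases i' with
          | inl a => rfl
          | inr a => exact hi a (fun h => hi' (by rw [h]))
      · intro g
        show (Matrix.fromBlocks (ρ₁' g) 0 0 (ρ₂' g)).trace = _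
        have h1 : (Matrix.fromBlocks (ρ₁' g) 0 0 (ρ₂' g)).trace =
            (ρ₁' g).trace + (ρ₂' g).trace := by
          simp [Matrix.trace, Fintype.sum_sum_type]
        rw [h1, ht₁, ht₂, trace_eq_trace_restrict_add_trace_mapQ W (ρ g) (hW g)]
        rfl
      · intro g
        show (Matrix.fromBlocks (ρ₁' g) 0 0 (ρ₂' g)).det = _
        rw [Matrix.det_fromBlocks_zero₂₁, hdet₁, hdet₂,
          LinearMap.det_eq_det_mul_det W (ρ g) (hW g)]
        rfl
      · intro g
        show (Matrix.fromBlocks (ρ₁' g) 0 0 (ρ₂' g)).charpoly = _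
        rw [Matrix.charpoly_fromBlocks_zero₂₁, hch₁, hch₂,
          charpoly_eq_charpoly_restrict_mul_charpoly_mapQ W (ρ g) (hW g)]
        rfl

/-- Every representation into `SL_r(ℂ)` of a group with a commutative term in its lower central
series has the same traces and characteristic polynomials as the representation of some
monomial data of determinant one. -/
theorem exists_monoData_of_abNil {Γ : Type} [Group Γ] {r : ℕ}
    (hΓ : ∃ m, ∀ a ∈ (⊤ : Subgroup Γ).lowerCentralSeries m,
      ∀ b ∈ (⊤ : Subgroup Γ).lowerCentralSeries m, a * b = b * a)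
    (ρ : Γ →* Matrix.SpecialLinearGroup (Fin r) ℂ) :
    ∃ (D : MonoData Γ (Fin r) ℂ) (_ : D.IsSL),
      (∀ γ, (D.mat γ).trace = (ρ γ : Matrix (Fin r) (Fin r) ℂ).trace) ∧
      (∀ γ, (D.mat γ).charpoly = (ρ γ : Matrix (Fin r) (Fin r) ℂ).charpoly) := by
  classical
  let ρL : Γ →* Module.End ℂ (Fin r → ℂ) :=
    { toFun := fun g => Matrix.toLin' (ρ g : Matrix (Fin r) (Fin r) ℂ)
      map_one' := by
        rw [map_one, Matrix.SpecialLinearGroup.coe_one, Matrix.toLin'_one]
        rfl
      map_mul' := fun g h => by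
        rw [map_mul, Matrix.SpecialLinearGroup.coe_mul, Matrix.toLin'_mul]
        rfl }
  obtain ⟨κ, hκ, hd, ρ', hc, hm, ht, hdet, hch⟩ :=
    exists_mono_matrix_of_abChain r Γ (Fin r → ℂ) ρL (by simp) (hasAbChain_of_lcs ρL hΓ)
  have hc' : Fintype.card κ = Fintype.card (Fin r) := by rw [hc, Fintype.card_fin]
  let e : κ ≃ Fin r := Fintype.equivOfCardEq hc'
  let ρ'' : Γ →* Matrix (Fin r) (Fin r) ℂ :=
    { toFun := fun g => (ρ' g).submatrix e.symm e.symm
      map_one' := by rw [map_one]; exact Matrix.submatrix_one_equiv e.symm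
      map_mul' := fun g h => by
        rw [map_mul]
        exact (Matrix.submatrix_mul_equiv (ρ' g) (ρ' h) e.symm e.symm e.symm).symm }
  have hmono : ∀ γ j, ∃ i, ∀ i', i' ≠ i → ρ'' γ i' j = 0 := by
    intro γ j
    obtain ⟨i₀, hi₀⟩ := hm γ (e.symm j)
    refine ⟨e i₀, fun i' hi' => ?_⟩
    show ρ' γ (e.symm i') (e.symm j) = 0
    apply hi₀
    intro h
    apply hi'
    rw [← h, Equiv.apply_symm_apply]
  obtain ⟨D, hD⟩ := exists_monoData_of_cols ρ'' hmono
  have hdet' : ∀ γ, (D.mat γ).det = 1 := by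
    intro γ
    rw [hD γ]
    show ((ρ' γ).submatrix e.symm e.symm).det = 1
    rw [Matrix.det_submatrix_equiv_self, hdet γ]
    show LinearMap.det (Matrix.toLin' (ρ γ : Matrix (Fin r) (Fin r) ℂ)) = 1
    rw [LinearMap.det_toLin']
    exact (ρ γ).2
  refine ⟨D, ?_, ?_, ?_⟩
  · intro γ
    apply Units.ext
    rw [← MonoData.det_mat, hdet' γ, Units.val_one]
  · intro γ
    rw [hD γ]
    show ((ρ' γ).submatrix e.symm e.symm).trace = _
    have h1 : ((ρ' γ).submatrix e.symm e.symm).trace = (ρ' γ).trace := by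
      unfold Matrix.trace
      simp only [Matrix.diag_apply, Matrix.submatrix_apply]
      exact Equiv.sum_comp e.symm (fun i => ρ' γ i i)
    rw [h1, ht γ]
    show LinearMap.trace ℂ (Fin r → ℂ) (Matrix.toLin' (ρ γ : Matrix (Fin r) (Fin r) ℂ)) = _
    rw [Matrix.trace_toLin'_eq]
  · intro γ
    rw [hD γ]
    show (Matrix.reindex e e (ρ' γ)).charpoly = _
    rw [Matrix.charpoly_reindex, hch γ]
    show LinearMap.charpoly (Matrix.toLin' (ρ γ : Matrix (Fin r) (Fin r) ℂ)) = _
    rw [Matrix.charpoly_toLin']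

end Vale.Agent.H1.P002
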