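import Mathlib

namespace Vale.Agent.H1.P002

/-- A representation into `SL_r(R)` is monomial if every column of every matrix `ρ γ` has at most
one nonzero entry (so each `ρ γ` is a generalised permutation matrix: a permutation matrix
times a diagonal matrix). -/
def IsMonomialRep {Γ : Type} [Group Γ] {r : ℕ} {R : Type} [CommRing R]
    (ρ : Γ →* Matrix.SpecialLinearGroup (Fin r) R) : Prop :=
  ∀ γ j, ∃ i, ∀ i', i' ≠ i → (ρ γ : Matrix (Fin r) (Fin r) R) i' j = 0

end Vale.Agent.H1.P002
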