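import Mathlib
import Vale.Agent.H1.P002.Nilp
import Vale.Agent.H1.P002.DefsMono

/-!
Potential density of integral points on the monomial locus of the `SL_r`-character variety of
an arbitrary finitely generated group, and on the whole character variety of a finitely generated
nilpotent group.
-/

namespace Vale.Agent.H1.P002

open NumberField

/-- Density of integral monomial representations among complex monomial representations. -/
theorem mono_density {Γ : Type} [Group Γ] [Group.FG Γ] (r : ℕ) :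
    ∃ N : ℕ, N ≠ 0 ∧ ∀ L : IntermediateField ℚ ℂ, ((Real.sqrt 2 : ℝ) : ℂ) ∈ L →
      ∀ ζ : ℂ, ζ ∈ L → IsPrimitiveRoot ζ N →
      ∀ f ∈ traceAlgebra Γ r,
        (∀ (D₀ : MonoData Γ (Fin r) (𝓞 L)) (h : D₀.IsSL),
          f ((Matrix.SpecialLinearGroup.map (toCplx L)).comp (D₀.toRep h)) = 0) →
        ∀ (D : MonoData Γ (Fin r) ℂ) (h : D.IsSL), f (D.toRep h) = 0 := by
  have hfin : Finite (Γ →* Equiv.Perm (Fin r)) := finite_hom_of_fg Γ _
  obtain ⟨N, hN, hmain⟩ := mono_density_rel (Γ := Γ) r (fun _ => True) (fun _ => ∅)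
    (T := Γ →* Equiv.Perm (Fin r)) (fun D => D.perm)
    (fun D D' _ _ h => ⟨h, fun b hb => absurd hb (Set.notMem_empty b)⟩)
    (fun _ _ _ _ _ => trivial)
    (fun D _ b hb => absurd hb (Set.notMem_empty b))
  refine ⟨N, hN, fun L hsL ζ hζL hζ f hf hint D h => ?_⟩
  exact hmain L hsL ζ hζL hζ f hf (fun D₀ h₀ _ => hint D₀ h₀) D h trivial

/-- A number field inside `ℂ` containing `√2` and a primitive `N`-th root of unity. -/
theorem exists_field (N : ℕ) (hN : N ≠ 0) :
    ∃ L : IntermediateField ℚ ℂ, NumberField L ∧ ((Real.sqrt 2 : ℝ) : ℂ) ∈ L ∧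
      ∃ ζ : ℂ, ζ ∈ L ∧ IsPrimitiveRoot ζ N := by
  let ζ : ℂ := Complex.exp (2 * Real.pi * Complex.I / N)
  have hζ : IsPrimitiveRoot ζ N := Complex.isPrimitiveRoot_exp N hN
  let s : ℂ := ((Real.sqrt 2 : ℝ) : ℂ)
  let L : IntermediateField ℚ ℂ := IntermediateField.adjoin ℚ ({s, ζ} : Set ℂ)
  have hsL : s ∈ L := IntermediateField.subset_adjoin ℚ _ (by simp)
  have hζL : ζ ∈ L := IntermediateField.subset_adjoin ℚ _ (by simp)
  have hfd : FiniteDimensional ℚ L := by
    apply IntermediateField.finiteDimensional_adjoin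
    intro x hx
    rcases hx with rfl | rfl
    · exact isIntegral_sqrtTwo.tower_top
    · exact (hζ.isIntegral (Nat.pos_of_ne_zero hN)).tower_top
  exact ⟨L, { to_charZero := inferInstance, to_finiteDimensional := hfd }, hsL, ζ, hζL, hζ⟩

theorem isMonomialRep_toRep {Γ : Type} [Group Γ] {r : ℕ} {R : Type} [CommRing R]
    (D : MonoData Γ (Fin r) R) (h : D.IsSL) : IsMonomialRep (D.toRep h) := by
  intro γ j
  refine ⟨D.perm γ j, fun i' hi' => ?_⟩
  show D.mat γ i' j = 0
  unfold MonoData.mat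
  rw [monoMat_apply, if_neg hi']

/-- Potential density of integral points on the monomial locus for every finitely generated
group, and on the whole character variety for nilpotent groups. -/
theorem mono_nilpotent_density (Γ : Type) [Group Γ] [Group.FG Γ] (r : ℕ) :
    ∃ (L : Type) (_ : Field L) (_ : NumberField L) (σ : L →+* ℂ),
      ∀ f ∈ traceAlgebra Γ r,
        (∀ ρ₀ : Γ →* Matrix.SpecialLinearGroup (Fin r) (NumberField.RingOfIntegers L),
            IsMonomialRep ρ₀ →
            f ((Matrix.SpecialLinearGroup.map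
              (σ.comp (algebraMap (NumberField.RingOfIntegers L) L))).comp ρ₀) = 0) →
        (∀ ρ : Γ →* Matrix.SpecialLinearGroup (Fin r) ℂ, IsMonomialRep ρ → f ρ = 0) ∧
        (Group.IsNilpotent Γ → ∀ ρ : Γ →* Matrix.SpecialLinearGroup (Fin r) ℂ, f ρ = 0) := by
  classical
  obtain ⟨N, hN, hmain⟩ := mono_density (Γ := Γ) r
  obtain ⟨L, hnf, hsL, ζ, hζL, hζ⟩ := exists_field N hN
  refine ⟨L, inferInstance, hnf, algebraMap L ℂ, fun f hf hint => ?_⟩
  have hall : ∀ (D : MonoData Γ (Fin r) ℂ) (h : D.IsSL), f (D.toRep h) = 0 :=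
    hmain L hsL ζ hζL hζ f hf (fun D₀ h₀ => hint (D₀.toRep h₀) (isMonomialRep_toRep D₀ h₀))
  refine ⟨fun ρ hρ => ?_, fun hnil ρ => ?_⟩
  · obtain ⟨D, h, hD⟩ := exists_monoData_of_rep ρ hρ
    rw [← hD]
    exact hall D h
  · obtain ⟨D, h, hD, _⟩ := exists_monoData_of_nilpotent ρ
    rw [← hall D h]
    apply traceAlgebra_congr' _ hf
    intro γ
    exact (hD γ).symm

end Vale.Agent.H1.P002
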