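import Mathlib
import Vale.Agent.H1.P002.Final
import Vale.Agent.H1.P002.Bdry

/-!
Potential density of integral points with prescribed quasi-unipotent characteristic polynomials
at finitely many group elements: on the monomial locus for every finitely generated group, and
on the whole character variety for finitely generated nilpotent groups.
-/

namespace Vale.Agent.H1.P002

open NumberField

theorem mono_nilpotent_density_bd (Γ : Type) [Group Γ] [Group.FG Γ] (r s : ℕ) (γ : Fin s → Γ)
    (n : ℕ) (hn : n ≠ 0) (q : Fin s → Polynomial ℂ)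
    (hq : ∀ i (μ : ℂ), (q i).IsRoot μ → μ ^ n = 1) :
    ∃ (L : Type) (_ : Field L) (_ : NumberField L) (σ : L →+* ℂ),
      ∀ f ∈ traceAlgebra Γ r,
        (∀ ρ₀ : Γ →* Matrix.SpecialLinearGroup (Fin r) (NumberField.RingOfIntegers L),
            IsMonomialRep ρ₀ →
            (∀ i, (((Matrix.SpecialLinearGroup.map
              (σ.comp (algebraMap (NumberField.RingOfIntegers L) L))).comp ρ₀) (γ i) :
                Matrix (Fin r) (Fin r) ℂ).charpoly = q i) →
            f ((Matrix.SpecialLinearGroup.map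
              (σ.comp (algebraMap (NumberField.RingOfIntegers L) L))).comp ρ₀) = 0) →
        (∀ ρ : Γ →* Matrix.SpecialLinearGroup (Fin r) ℂ, IsMonomialRep ρ →
          (∀ i, (ρ (γ i) : Matrix (Fin r) (Fin r) ℂ).charpoly = q i) → f ρ = 0) ∧
        (Group.IsNilpotent Γ → ∀ ρ : Γ →* Matrix.SpecialLinearGroup (Fin r) ℂ,
          (∀ i, (ρ (γ i) : Matrix (Fin r) (Fin r) ℂ).charpoly = q i) → f ρ = 0) := by
  classical
  obtain ⟨N, hN, hmain⟩ := mono_density_bd (Γ := Γ) r s γ n hn q hq
  obtain ⟨L, hnf, hsL, ζ, hζL, hζ⟩ := exists_field N hN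
  refine ⟨L, inferInstance, hnf, algebraMap L ℂ, fun f hf hint => ?_⟩
  have hall : ∀ (D : MonoData Γ (Fin r) ℂ) (h : D.IsSL),
      (∀ i, (D.mat (γ i)).charpoly = q i) → f (D.toRep h) = 0 := by
    apply hmain L hsL ζ hζL hζ f hf
    intro D₀ h₀ hP
    apply hint (D₀.toRep h₀) (isMonomialRep_toRep D₀ h₀)
    intro i
    have h1 := hP i
    rw [← MonoData.toRep_apply (D₀.map (toCplx L)) (D₀.isSL_map _ h₀), ← MonoData.toRep_map] at h1
    exact h1
  refine ⟨fun ρ hρ hch => ?_, fun hnil ρ hch => ?_⟩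
  · obtain ⟨D, h, hD⟩ := exists_monoData_of_rep ρ hρ
    have h2 : ∀ i, (D.mat (γ i)).charpoly = q i := by
      intro i
      rw [← hch i, ← hD]
      rfl
    rw [← hD]
    exact hall D h h2
  · obtain ⟨D, h, hD, hDch⟩ := exists_monoData_of_nilpotent ρ
    rw [← hall D h (fun i => (hDch (γ i)).trans (hch i))]
    apply traceAlgebra_congr' _ hf
    intro γ'
    exact (hD γ').symm

end Vale.Agent.H1.P002
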